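import Mathlib

/-!
Definitions for the Foulkes-Howe map in the monomial basis.

`V` has basis `e_i`, `i : Fin n`.  The monomials of degree `b` in the `e_i` (type `Mon n b`) form a
basis of `Sym^b V`.  Hence `Sym^a (Sym^b V)` is the homogeneous part of degree `a` of the polynomial
ring `Pl n b` having one variable per element of `Mon n b`.
-/

open Finset MvPolynomial

namespace Vale.Agent.Lib.P181

/-- Monomials of degree `b` in `n` letters: the monomial basis of `Sym^b V`, `V = ℂ^n`. -/
abbrev Mon (n b : ℕ) := Sym (Fin n) b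

/-- The polynomial ring on the basis of `Sym^b V`; its homogeneous part of degree `a` is
`Sym^a (Sym^b V)`. -/
abbrev Pl (n b : ℕ) := MvPolynomial (Mon n b) ℂ

/-- The monomial `e_{f 0} ⋯ e_{f (b-1)}`. -/
noncomputable def rowMon {n b : ℕ} (f : Fin b → Fin n) : Mon n b :=
  ⟨Multiset.map f univ.val, by simp⟩

/-- The element `∏_i (v_{i1} ⋯ v_{ib})` of `Sym^a (Sym^b V)` given by an `a × b` array of
basis vectors. -/
noncomputable def rowProd {n a b : ℕ} (T : Fin a → Fin b → Fin n) : Pl n b :=
  ∏ i, X (rowMon (T i))

/-- The right side of the defining formula of the Foulkes-Howe map: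
`∑_{σ_1,…,σ_a ∈ S_b} ∏_{j} (v_{1 σ_1(j)} ⋯ v_{a σ_a(j)})`. -/
noncomputable def psiArr {n a b : ℕ} (T : Fin a → Fin b → Fin n) : Pl n a :=
  ∑ σ : Fin a → Equiv.Perm (Fin b), ∏ j : Fin b, X (rowMon fun i => T i (σ i j))

open Classical in
/-- The Foulkes-Howe map `Ψ_{a,b,V} : Sym^a (Sym^b V) → Sym^b (Sym^a V)` in the monomial basis,
extended by zero on monomials whose degree differs from `a`.  See `foulkes_rowProd` for the
defining formula. -/
noncomputable def foulkes (a b n : ℕ) : Pl n b →ₗ[ℂ] Pl n a :=
  (basisMonomials (Mon n b) ℂ).constr ℂ fun e =>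
    if h : ∃ T : Fin a → Fin b → Fin n, rowProd T = monomial e 1 then
      psiArr (Classical.choose h) else 0

/-- The content (weight) of a monomial: how many times each basis vector occurs. -/
def content {n b : ℕ} (m : Mon n b) : Fin n → ℕ := fun i => Multiset.count i m.1

/-- Replace one occurrence of the letter `j` in a monomial by the letter `i`
(the monomial is unchanged if `j` does not occur). -/
noncomputable def replace {n b : ℕ} (i j : Fin n) (m : Mon n b) : Mon n b :=
  if h : j ∈ m.1 then
    ⟨i ::ₘ m.1.erase j, by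
      rw [Multiset.card_cons, Multiset.card_erase_of_mem h, m.2]
      have : 0 < b := by
        have := Multiset.card_pos_iff_exists_mem.2 ⟨j, h⟩
        rwa [m.2] at this
      exact Nat.succ_pred_eq_of_pos this⟩
  else m

/-- The action of the elementary matrix `E_{ij}` of `𝔤𝔩(V)` on `Sym^a (Sym^b V)`: it is the
derivation of `Pl n b` extending the action `E_{ij} m = (count of j in m) • (m with one j replaced
by i)` on `Sym^b V`. -/
noncomputable def raise {n b : ℕ} (i j : Fin n) : Derivation ℂ (Pl n b) (Pl n b) :=
  mkDerivation ℂ fun m => ((Multiset.count j m.1 : ℕ) : ℂ) • X (replace i j m)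

/-- The weight space of weight `lam` in `Sym^a (Sym^b V)`. -/
noncomputable def weightSpace (a b n : ℕ) (lam : Fin n → ℕ) : Submodule ℂ (Pl n b) :=
  homogeneousSubmodule (Mon n b) ℂ a ⊓ weightedHomogeneousSubmodule ℂ content lam

/-- The space of highest weight vectors of weight `lam` in `Sym^a (Sym^b V)`.  For a partition
`lam` with at most `n` parts its dimension is the multiplicity of the Schur module `𝕊_lam V` in
`Sym^a (Sym^b V)`. -/
noncomputable def hwSpace (a b n : ℕ) (lam : Fin n → ℕ) : Submodule ℂ (Pl n b) :=
  weightSpace a b n lam ⊓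
    ⨅ (i : Fin n) (j : Fin n) (_ : i < j), LinearMap.ker (raise i j).toLinearMap

end Vale.Agent.Lib.P181
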