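import Mathlib
import Vale.Agent.Lib.P181.Defs

open Finset MvPolynomial

namespace Vale.Agent.Lib.P181

lemma exists_perm_of_card_fibers {ι α : Type*} [Fintype ι] [DecidableEq ι] [DecidableEq α]
    (f g : ι → α) (h : ∀ a, (univ.filter fun i => f i = a).card = (univ.filter fun i => g i = a).card) :
    ∃ τ : Equiv.Perm ι, ∀ i, g i = f (τ i) := by
  have e : ∀ a, {i // g i = a} ≃ {i // f i = a} := fun a =>
    Fintype.equivOfCardEq (by simp [Fintype.card_subtype, h])
  refine ⟨Equiv.ofFiberEquiv e, fun i => ?_⟩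
  exact (Equiv.ofFiberEquiv_map e i).symm

lemma rowMon_eq_iff_count {n b : ℕ} (f g : Fin b → Fin n) (h : rowMon f = rowMon g) (x : Fin n) :
    (univ.filter fun i => f i = x).card = (univ.filter fun i => g i = x).card := by
  have h1 : Multiset.map f univ.val = Multiset.map g univ.val := congrArg Subtype.val h
  have h2 := congrArg (Multiset.count x) h1
  rw [Multiset.count_map, Multiset.count_map] at h2
  simpa [eq_comm, Finset.card, Finset.filter_val] using h2

lemma exists_perm_of_rowMon_eq {n b : ℕ} (f g : Fin b → Fin n) (h : rowMon f = rowMon g) :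
    ∃ ρ : Equiv.Perm (Fin b), ∀ j, g j = f (ρ j) :=
  exists_perm_of_card_fibers f g (rowMon_eq_iff_count f g h)

lemma rowMon_comp_perm {n b : ℕ} (f : Fin b → Fin n) (ρ : Equiv.Perm (Fin b)) :
    rowMon (fun j => f (ρ j)) = rowMon f := by
  apply Subtype.ext
  show Multiset.map (fun j => f (ρ j)) univ.val = Multiset.map f univ.val
  have : Multiset.map (fun j => f (ρ j)) univ.val = Multiset.map f (Multiset.map ρ univ.val) := by
    rw [Multiset.map_map]; rfl
  rw [this, Multiset.map_univ_val_equiv]

/-- Exponent vector of an array. -/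
noncomputable def expOf {n a b : ℕ} (T : Fin a → Fin b → Fin n) : Mon n b →₀ ℕ :=
  ∑ i, Finsupp.single (rowMon (T i)) 1

lemma rowProd_eq_monomial {n a b : ℕ} (T : Fin a → Fin b → Fin n) :
    rowProd T = monomial (expOf T) 1 := by
  unfold rowProd expOf
  rw [MvPolynomial.monomial_sum_one]
  rfl

lemma expOf_apply {n a b : ℕ} (T : Fin a → Fin b → Fin n) (m : Mon n b) :
    expOf T m = (univ.filter fun i => rowMon (T i) = m).card := by
  classical
  unfold expOf
  rw [Finsupp.finsetSum_apply, Finset.card_filter]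
  simp [Finsupp.single_apply]

lemma exists_of_rowProd_eq {n a b : ℕ} (T T' : Fin a → Fin b → Fin n) (h : rowProd T = rowProd T') :
    ∃ (τ : Equiv.Perm (Fin a)) (ρ : Fin a → Equiv.Perm (Fin b)),
      ∀ i j, T' i j = T (τ i) (ρ i j) := by
  classical
  rw [rowProd_eq_monomial, rowProd_eq_monomial] at h
  have h1 : expOf T = expOf T' := by
    by_contra hne
    have := congrArg (coeff (expOf T)) h
    rw [coeff_monomial, coeff_monomial, if_pos rfl, if_neg (Ne.symm hne)] at this
    exact one_ne_zero this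
  obtain ⟨τ, hτ⟩ := exists_perm_of_card_fibers (fun i => rowMon (T i)) (fun i => rowMon (T' i))
    (fun m => by rw [← expOf_apply, ← expOf_apply, h1])
  have h2 : ∀ i, ∃ ρ : Equiv.Perm (Fin b), ∀ j, T' i j = T (τ i) (ρ j) := fun i =>
    exists_perm_of_rowMon_eq _ _ (hτ i).symm
  choose ρ hρ using h2
  exact ⟨τ, ρ, hρ⟩

/-- Invariance of the formula under permuting rows and permuting inside rows. -/
lemma psiArr_perm {n a b : ℕ} (T : Fin a → Fin b → Fin n) (τ : Equiv.Perm (Fin a))
    (ρ : Fin a → Equiv.Perm (Fin b)) :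
    psiArr (fun i j => T (τ i) (ρ i j)) = psiArr T := by
  classical
  unfold psiArr
  -- the bijection on tuples of permutations
  let Φ : (Fin a → Equiv.Perm (Fin b)) ≃ (Fin a → Equiv.Perm (Fin b)) :=
    { toFun := fun σ i => ρ (τ.symm i) * σ (τ.symm i)
      invFun := fun σ i => (ρ i)⁻¹ * σ (τ i)
      left_inv := fun σ => by ext i; simp
      right_inv := fun σ => by ext i; simp }
  refine Fintype.sum_equiv Φ _ _ fun σ => ?_
  refine Finset.prod_congr rfl fun j _ => ?_
  congr 1
  have : (fun i => T i (Φ σ i j)) = fun i => T i ((ρ (τ.symm i)) (σ (τ.symm i) j)) := rfl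
  rw [this]
  have h := rowMon_comp_perm (fun i => T i ((ρ (τ.symm i)) (σ (τ.symm i) j))) τ
  rw [← h]
  congr 1
  funext i
  simp

/-- The defining formula of the Foulkes-Howe map. -/
theorem foulkes_rowProd {n a b : ℕ} (T : Fin a → Fin b → Fin n) :
    foulkes a b n (rowProd T) = psiArr T := by
  classical
  have h : ∃ T' : Fin a → Fin b → Fin n, rowProd T' = monomial (expOf T) 1 :=
    ⟨T, rowProd_eq_monomial T⟩
  rw [rowProd_eq_monomial]
  have hm : monomial (expOf T) (1:ℂ) = basisMonomials (Mon n b) ℂ (expOf T) := by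
    rw [coe_basisMonomials]
  rw [hm]
  unfold foulkes
  rw [Module.Basis.constr_basis, dif_pos h]
  have hc : rowProd (Classical.choose h) = rowProd T :=
    (Classical.choose_spec h).trans (rowProd_eq_monomial T).symm
  obtain ⟨τ, ρ, hτρ⟩ := exists_of_rowProd_eq _ _ hc
  have : T = fun i j => (Classical.choose h) (τ i) (ρ i j) := by
    funext i j; exact hτρ i j
  conv_rhs => rw [this]
  rw [psiArr_perm]

end Vale.Agent.Lib.P181
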