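import Mathlib

namespace Vale.Agent.Lib.P181

section band

open Submodule (span)

variable {S : Type*} [CommRing S] [Algebra ℂ S]

/-- Convolution of two sequences. -/
noncomputable def conv (u X : ℕ → S) (J : ℕ) : S :=
  ∑ p ∈ Finset.HasAntidiagonal.antidiagonal J, u p.1 * X p.2

/-- The span of a sequence. -/
noncomputable abbrev sp (u : ℕ → S) : Submodule ℂ S := span ℂ (Set.range u)

lemma mem_sp (u : ℕ → S) (l : ℕ) : u l ∈ sp u := Submodule.subset_span ⟨l, rfl⟩

lemma conv_zero_mem (u X : ℕ → S) : u 0 * X 0 ∈ sp (conv u X) := by
  have : conv u X 0 = u 0 * X 0 := by simp [conv]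
  rw [← this]
  exact mem_sp _ _

lemma expand_pow (A B : Submodule ℂ S) (k : ℕ) :
    (A ⊔ B) ^ (k + 1) ≤ A * (A ⊔ B) ^ k ⊔ B ^ (k + 1) := by
  induction k with
  | zero => simp
  | succ k ih =>
    have h1 : (A ⊔ B) ^ (k + 2) = A * (A ⊔ B) ^ (k + 1) ⊔ B * (A ⊔ B) ^ (k + 1) := by
      rw [pow_succ' (A ⊔ B) (k + 1), Submodule.sup_mul]
    rw [h1]
    apply sup_le le_sup_left
    refine le_trans (mul_le_mul_right ih B) ?_
    rw [Submodule.mul_sup]
    apply sup_le_sup _ (by rw [pow_succ' B (k + 1)])
    rw [mul_left_comm, pow_succ' (A ⊔ B) k]
    exact mul_le_mul_right (mul_le_mul_left le_sup_right _) _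

theorem band_lemma (m : ℕ) : ∀ (n : ℕ) (u X : ℕ → S), (∀ l, n ≤ l → u l = 0) →
    (∀ j, m < j → X j = 0) →
    sp u ^ (m + 1) * sp X ≤ sp u ^ m * sp (conv u X) := by
  induction m with
  | zero =>
    intro n u X _ hX
    simp only [zero_add, pow_one, pow_zero, one_mul]
    rw [Submodule.span_mul_span, Submodule.span_le]
    rintro _ ⟨a, ⟨l, rfl⟩, b, ⟨j, rfl⟩, rfl⟩
    simp only [SetLike.mem_coe]
    by_cases hj : j = 0
    · subst hj
      have : conv u X l = u l * X 0 := by
        unfold conv
        rw [Finset.sum_eq_single (l, 0)]
        · rintro ⟨p1, p2⟩ hp hne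
          have hs : p1 + p2 = l := Finset.HasAntidiagonal.mem_antidiagonal.1 hp
          have h2 : 0 < p2 := by
            by_contra h3
            apply hne
            rw [Prod.mk.injEq]
            omega
          simp [hX p2 h2]
        · intro h
          exact absurd (Finset.HasAntidiagonal.mem_antidiagonal.2 (by simp)) h
      rw [← this]
      exact mem_sp _ _
    · rw [hX j (Nat.pos_of_ne_zero hj), mul_zero]
      exact zero_mem _
  | succ m ih =>
    intro n
    induction n using Nat.strong_induction_on with
    | _ n ihn =>
      intro u X hu hX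
      set W := sp u with hW
      set R := sp (conv u X) with hR
      set Xs := sp X with hXs
      set A0 : Submodule ℂ S := span ℂ {X 0} with hA0
      set A1 : Submodule ℂ S := span ℂ {X (m + 1)} with hA1
      -- first window
      have hA : W ^ (m + 1) * Xs ≤ W ^ m * R ⊔ W ^ (m + 1) * A0 := by
        have h1 := ih n u (fun i => X (i + 1)) hu (fun j hj => hX _ (by omega))
        have h2 : sp (conv u fun i => X (i + 1)) ≤ R ⊔ W * A0 := by
          rw [Submodule.span_le]
          rintro _ ⟨J, rfl⟩
          have h3 : conv u X (J + 1) = u (J + 1) * X 0 + conv u (fun i => X (i + 1)) J := by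
            unfold conv
            rw [Finset.Nat.sum_antidiagonal_succ']
          have h4 : conv u (fun i => X (i + 1)) J = conv u X (J + 1) - u (J + 1) * X 0 := by
            rw [h3]; ring
          rw [h4]
          exact Submodule.sub_mem _ (Submodule.mem_sup_left (mem_sp _ _))
            (Submodule.mem_sup_right (Submodule.mul_mem_mul (mem_sp _ _)
              (Submodule.mem_span_singleton_self _)))
        have h5 : Xs ≤ (sp fun i => X (i + 1)) ⊔ A0 := by
          rw [Submodule.span_le]
          rintro _ ⟨j, rfl⟩
          cases j with
          | zero => exact Submodule.mem_sup_right (Submodule.mem_span_singleton_self _)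
          | succ j => exact Submodule.mem_sup_left (mem_sp (fun i => X (i + 1)) j)
        calc W ^ (m + 1) * Xs ≤ W ^ (m + 1) * ((sp fun i => X (i + 1)) ⊔ A0) :=
              mul_le_mul_right h5 _
          _ = W ^ (m + 1) * (sp fun i => X (i + 1)) ⊔ W ^ (m + 1) * A0 := Submodule.mul_sup _ _ _
          _ ≤ W ^ m * (R ⊔ W * A0) ⊔ W ^ (m + 1) * A0 :=
              sup_le_sup_right (h1.trans (mul_le_mul_right h2 _)) _
          _ ≤ W ^ m * R ⊔ W ^ (m + 1) * A0 := by
              rw [Submodule.mul_sup, ← mul_assoc, ← pow_succ, sup_assoc, sup_idem]
      -- second window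
      have hB : W ^ (m + 1) * Xs ≤ W ^ m * R ⊔ W ^ (m + 1) * A1 := by
        have h1 := ih n u (fun i => if i ≤ m then X i else 0) hu
          (fun j hj => if_neg (by omega))
        have h2 : sp (conv u fun i => if i ≤ m then X i else 0) ≤ R ⊔ W * A1 := by
          rw [Submodule.span_le]
          rintro _ ⟨J, rfl⟩
          have h3 : conv u (fun i => if i ≤ m then X i else 0) J = conv u X J -
              ∑ p ∈ Finset.HasAntidiagonal.antidiagonal J, u p.1 *
                (if p.2 = m + 1 then X (m + 1) else 0) := by
            unfold conv
            rw [← Finset.sum_sub_distrib]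
            refine Finset.sum_congr rfl fun p _ => ?_
            rw [← mul_sub]
            congr 1
            show (if p.2 ≤ m then X p.2 else 0) = _
            by_cases h : p.2 ≤ m
            · rw [if_pos h, if_neg (by omega), sub_zero]
            · rw [if_neg h]
              by_cases h' : p.2 = m + 1
              · rw [if_pos h', h', sub_self]
              · rw [if_neg h', hX _ (by omega), sub_zero]
          rw [h3]
          refine Submodule.sub_mem _ (Submodule.mem_sup_left (mem_sp _ _))
            (Submodule.mem_sup_right (Submodule.sum_mem _ fun p _ => ?_))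
          refine Submodule.mul_mem_mul (mem_sp _ _) ?_
          split_ifs
          · exact Submodule.mem_span_singleton_self _
          · exact zero_mem _
        have h5 : Xs ≤ (sp fun i => if i ≤ m then X i else 0) ⊔ A1 := by
          rw [Submodule.span_le]
          rintro _ ⟨j, rfl⟩
          by_cases h : j ≤ m
          · have h6 := mem_sp (fun i => if i ≤ m then X i else 0) j
            simp only [if_pos h] at h6
            exact Submodule.mem_sup_left h6
          · by_cases h' : j = m + 1
            · subst h'
              exact Submodule.mem_sup_right (Submodule.mem_span_singleton_self _)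
            · rw [SetLike.mem_coe, hX j (by omega)]
              exact zero_mem _
        calc W ^ (m + 1) * Xs ≤ W ^ (m + 1) * ((sp fun i => if i ≤ m then X i else 0) ⊔ A1) :=
              mul_le_mul_right h5 _
          _ = W ^ (m + 1) * (sp fun i => if i ≤ m then X i else 0) ⊔ W ^ (m + 1) * A1 :=
              Submodule.mul_sup _ _ _
          _ ≤ W ^ m * (R ⊔ W * A1) ⊔ W ^ (m + 1) * A1 :=
              sup_le_sup_right (h1.trans (mul_le_mul_right h2 _)) _
          _ ≤ W ^ m * R ⊔ W ^ (m + 1) * A1 := by
              rw [Submodule.mul_sup, ← mul_assoc, ← pow_succ, sup_assoc, sup_idem]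
      -- the factor `u 0`
      have hC : ∀ (U A : Submodule ℂ S), U ≤ W → U * A ≤ R →
          W ^ (m + 1) * Xs ≤ W ^ m * R ⊔ W ^ (m + 1) * A → U * (W ^ (m + 1) * Xs) ≤ W ^ (m + 1) * R := by
        intro U A hUW hUA hle
        calc U * (W ^ (m + 1) * Xs) ≤ U * (W ^ m * R ⊔ W ^ (m + 1) * A) := mul_le_mul_right hle _
          _ = U * (W ^ m * R) ⊔ U * (W ^ (m + 1) * A) := Submodule.mul_sup _ _ _
          _ ≤ W ^ (m + 1) * R := by
            apply sup_le
            · rw [pow_succ' W m, mul_assoc]
              exact mul_le_mul_left hUW _
            · rw [mul_left_comm]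
              exact mul_le_mul_right hUA _
      set U0 : Submodule ℂ S := span ℂ {u 0} with hU0
      have hU0W : U0 ≤ W := by
        rw [Submodule.span_le]; rintro _ rfl; exact mem_sp _ _
      have hU0A : U0 * A0 ≤ R := by
        rw [Submodule.span_mul_span, Submodule.span_le]
        rintro _ ⟨a, rfl, b, rfl, rfl⟩
        exact conv_zero_mem u X
      have hC0 := hC U0 A0 hU0W hU0A hA
      -- main case distinction
      have hrw : W ^ (m + 1 + 1) * Xs = W * (W ^ (m + 1) * Xs) := by
        rw [pow_succ' W (m + 1), mul_assoc]
      match n, ihn, hu with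
      | 0, _, hu =>
        have hWb : W = ⊥ := by
          rw [hW, Submodule.span_eq_bot]
          rintro _ ⟨l, rfl⟩
          exact hu l (Nat.zero_le _)
        rw [hrw, hWb, Submodule.bot_mul]
        exact bot_le
      | 1, _, hu =>
        have hWU : W ≤ U0 := by
          rw [hW, Submodule.span_le]
          rintro _ ⟨l, rfl⟩
          cases l with
          | zero => exact Submodule.mem_span_singleton_self _
          | succ l =>
            rw [SetLike.mem_coe, hu (l + 1) (by omega)]
            exact zero_mem _
        rw [hrw]
        exact (mul_le_mul_left hWU _).trans hC0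
      | n' + 2, ihn, hu =>
        set Ut : Submodule ℂ S := span ℂ {u (n' + 1)} with hUt
        have hUtW : Ut ≤ W := by
          rw [Submodule.span_le]; rintro _ rfl; exact mem_sp _ _
        have hUtA : Ut * A1 ≤ R := by
          rw [Submodule.span_mul_span, Submodule.span_le]
          rintro _ ⟨a, rfl, b, rfl, rfl⟩
          have : conv u X (n' + 1 + (m + 1)) = u (n' + 1) * X (m + 1) := by
            unfold conv
            rw [Finset.sum_eq_single (n' + 1, m + 1)]
            · rintro ⟨p1, p2⟩ hp hne
              have hs : p1 + p2 = n' + 1 + (m + 1) := Finset.HasAntidiagonal.mem_antidiagonal.1 hp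
              by_cases h1 : n' + 2 ≤ p1
              · simp [hu p1 h1]
              · have h2 : m + 1 < p2 := by
                  by_contra h3
                  apply hne
                  rw [Prod.mk.injEq]
                  omega
                simp [hX p2 h2]
            · intro h
              exact absurd (Finset.HasAntidiagonal.mem_antidiagonal.2 (by simp)) h
          show u (n' + 1) * X (m + 1) ∈ R
          rw [← this]
          exact mem_sp _ _
        have hCt := hC Ut A1 hUtW hUtA hB
        set ub : ℕ → S := fun l => if l < n' then u (l + 1) else 0 with hub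
        have hubW : sp ub ≤ W := by
          rw [Submodule.span_le]
          rintro _ ⟨l, rfl⟩
          simp only [hub]
          split_ifs
          · exact mem_sp _ _
          · exact zero_mem _
        have hWeq : W = (U0 ⊔ Ut) ⊔ sp ub := by
          apply le_antisymm
          · rw [hW, Submodule.span_le]
            rintro _ ⟨l, rfl⟩
            cases l with
            | zero =>
              exact Submodule.mem_sup_left (Submodule.mem_sup_left
                (Submodule.mem_span_singleton_self _))
            | succ l =>
              by_cases h1 : l < n'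
              · have h2 := mem_sp ub l
                simp only [hub, if_pos h1] at h2
                exact Submodule.mem_sup_right h2
              · by_cases h3 : l = n'
                · subst h3
                  exact Submodule.mem_sup_left (Submodule.mem_sup_right
                    (Submodule.mem_span_singleton_self _))
                · rw [SetLike.mem_coe, hu (l + 1) (by omega)]
                  exact zero_mem _
          · exact sup_le (sup_le hU0W hUtW) hubW
        have hconv : sp (conv ub X) ≤ R ⊔ U0 * Xs ⊔ Ut * Xs := by
          rw [Submodule.span_le]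
          rintro _ ⟨J, rfl⟩
          have h3 : conv ub X J = conv u X (J + 1) - u 0 * X (J + 1) -
              ∑ p ∈ Finset.HasAntidiagonal.antidiagonal J,
                (if p.1 = n' then u (n' + 1) else 0) * X p.2 := by
            have h4 : conv u X (J + 1) = u 0 * X (J + 1) +
                ∑ p ∈ Finset.HasAntidiagonal.antidiagonal J, u (p.1 + 1) * X p.2 := by
              unfold conv
              rw [Finset.Nat.sum_antidiagonal_succ]
            rw [h4, add_sub_cancel_left, ← Finset.sum_sub_distrib]
            unfold conv
            refine Finset.sum_congr rfl fun p _ => ?_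
            rw [← sub_mul]
            congr 1
            simp only [hub]
            by_cases h1 : p.1 < n'
            · rw [if_pos h1, if_neg (by omega), sub_zero]
            · rw [if_neg h1]
              by_cases h2 : p.1 = n'
              · rw [if_pos h2, h2, sub_self]
              · rw [if_neg h2, hu _ (by omega), sub_zero]
          rw [h3]
          refine Submodule.sub_mem _ (Submodule.sub_mem _ ?_ ?_) (Submodule.sum_mem _ fun p _ => ?_)
          · exact Submodule.mem_sup_left (Submodule.mem_sup_left (mem_sp _ _))
          · exact Submodule.mem_sup_left (Submodule.mem_sup_right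
              (Submodule.mul_mem_mul (Submodule.mem_span_singleton_self _) (mem_sp _ _)))
          · split_ifs
            · exact Submodule.mem_sup_right
                (Submodule.mul_mem_mul (Submodule.mem_span_singleton_self _) (mem_sp _ _))
            · rw [zero_mul]; exact zero_mem _
        have hub0 : ∀ l, n' ≤ l → ub l = 0 := fun l hl => if_neg (by omega)
        have hlast := ihn n' (by omega) ub X hub0 hX
        have hlast2 : sp ub ^ (m + 1 + 1) * Xs ≤ W ^ (m + 1) * R := by
          calc sp ub ^ (m + 1 + 1) * Xs ≤ sp ub ^ (m + 1) * sp (conv ub X) := hlast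
            _ ≤ W ^ (m + 1) * (R ⊔ U0 * Xs ⊔ Ut * Xs) :=
                mul_le_mul' (pow_le_pow_left' hubW _) hconv
            _ = W ^ (m + 1) * R ⊔ U0 * (W ^ (m + 1) * Xs) ⊔ Ut * (W ^ (m + 1) * Xs) := by
                rw [Submodule.mul_sup, Submodule.mul_sup, mul_left_comm U0, mul_left_comm Ut]
            _ ≤ W ^ (m + 1) * R := sup_le (sup_le le_rfl hC0) hCt
        calc W ^ (m + 1 + 1) * Xs ≤ ((U0 ⊔ Ut) * W ^ (m + 1) ⊔ sp ub ^ (m + 1 + 1)) * Xs := by
              refine mul_le_mul_left ?_ _
              have := expand_pow (U0 ⊔ Ut) (sp ub) (m + 1)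
              rw [← hWeq] at this
              exact this
          _ = U0 * (W ^ (m + 1) * Xs) ⊔ Ut * (W ^ (m + 1) * Xs) ⊔ sp ub ^ (m + 1 + 1) * Xs := by
              rw [Submodule.sup_mul, Submodule.sup_mul, Submodule.sup_mul, mul_assoc, mul_assoc]
          _ ≤ W ^ (m + 1) * R := sup_le (sup_le hC0 hCt) hlast2

lemma band_pow (W Xs R : Submodule ℂ S) (m b : ℕ) (h : W ^ (m + 1) * Xs ≤ W ^ m * R) (hb : m ≤ b) :
    W ^ (b + 1) * Xs ≤ W ^ b * R := by
  obtain ⟨t, rfl⟩ := Nat.exists_eq_add_of_le hb
  have e1 : W ^ (m + t + 1) * Xs = W ^ t * (W ^ (m + 1) * Xs) := by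
    rw [← mul_assoc, ← pow_add]
    congr 2
    omega
  have e2 : W ^ (m + t) * R = W ^ t * (W ^ m * R) := by
    rw [← mul_assoc, ← pow_add]
    congr 2
    omega
  rw [e1, e2]
  exact mul_le_mul_right h _

/-- The band lemma for the coefficients of a product of two polynomials. -/
theorem band_poly (U P : Polynomial S) (n m b : ℕ) (hU : ∀ l, n ≤ l → U.coeff l = 0)
    (hP : P.natDegree ≤ m) (hb : m ≤ b) (G : Submodule ℂ S) :
    sp (fun l => U.coeff l) ^ (b + 1) * (sp (fun j => P.coeff j) * G) ≤
      sp (fun J => (U * P).coeff J) * (sp (fun l => U.coeff l) ^ b * G) := by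
  rw [Submodule.mul_le]
  intro x hx y hy
  induction hy using Submodule.mul_induction_on' with
  | mem_mul_mem c hc g hg =>
    have hband := band_lemma m n (fun l => U.coeff l) (fun j => P.coeff j * g) hU
      (fun j hj => by
        have := Polynomial.coeff_eq_zero_of_natDegree_lt (lt_of_le_of_lt hP hj)
        simp only [this, zero_mul])
    have hpow := band_pow _ _ _ m b hband hb
    have hconv : ∀ J, conv (fun l => U.coeff l) (fun j => P.coeff j * g) J = (U * P).coeff J * g := by
      intro J
      rw [Polynomial.coeff_mul, Finset.sum_mul]
      unfold conv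
      refine Finset.sum_congr rfl fun p _ => ?_
      ring
    have hcg : c * g ∈ sp (fun j => P.coeff j * g) := by
      induction hc using Submodule.span_induction with
      | mem z hz =>
        obtain ⟨j, rfl⟩ := hz
        exact mem_sp (fun j => P.coeff j * g) j
      | zero => rw [zero_mul]; exact zero_mem _
      | add z w _ _ hz hw => rw [add_mul]; exact add_mem hz hw
      | smul k z _ hz => rw [smul_mul_assoc]; exact Submodule.smul_mem _ _ hz
    have hxg := hpow (Submodule.mul_mem_mul hx hcg)
    have h2 : sp (conv (fun l => U.coeff l) (fun j => P.coeff j * g)) ≤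
        sp (fun J => (U * P).coeff J) * span ℂ {g} := by
      rw [Submodule.span_le]
      rintro _ ⟨J, rfl⟩
      rw [SetLike.mem_coe, hconv]
      exact Submodule.mul_mem_mul (mem_sp (fun J => (U * P).coeff J) J)
        (Submodule.mem_span_singleton_self _)
    have h3 : span ℂ {g} ≤ G := by
      rw [Submodule.span_le]
      rintro _ rfl
      exact hg
    have h4 := (mul_le_mul_right h2 _) hxg
    rw [mul_left_comm] at h4
    exact (mul_le_mul_right (mul_le_mul_right h3 _) _) h4
  | add y z _ _ hy hz =>
    rw [mul_add]
    exact add_mem hy hz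

end band

end Vale.Agent.Lib.P181
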