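import Mathlib
import Vale.Agent.Lib.P181.Arrays

open Finset MvPolynomial

namespace Vale.Agent.Lib.P181

section desc

variable {M : Type*} [AddCommGroup M] [Module ℂ M]

open Classical in
/-- Linear map on `Pl n b` determined by an invariant function on arrays. -/
noncomputable def descLin (a b n : ℕ) (h : (Fin a → Fin b → Fin n) → M) : Pl n b →ₗ[ℂ] M :=
  (basisMonomials (Mon n b) ℂ).constr ℂ fun e =>
    if hx : ∃ T : Fin a → Fin b → Fin n, rowProd T = monomial e 1 then
      h (Classical.choose hx) else 0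

theorem descLin_rowProd {a b n : ℕ} (h : (Fin a → Fin b → Fin n) → M)
    (hinv : ∀ T (τ : Equiv.Perm (Fin a)) (ρ : Fin a → Equiv.Perm (Fin b)),
      h (fun i j => T (τ i) (ρ i j)) = h T)
    (T : Fin a → Fin b → Fin n) :
    descLin a b n h (rowProd T) = h T := by
  classical
  have hx : ∃ T' : Fin a → Fin b → Fin n, rowProd T' = monomial (expOf T) 1 :=
    ⟨T, rowProd_eq_monomial T⟩
  rw [rowProd_eq_monomial]
  have hm : monomial (expOf T) (1:ℂ) = basisMonomials (Mon n b) ℂ (expOf T) := by
    rw [coe_basisMonomials]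
  rw [hm]
  unfold descLin
  rw [Module.Basis.constr_basis, dif_pos hx]
  have hc : rowProd (Classical.choose hx) = rowProd T :=
    (Classical.choose_spec hx).trans (rowProd_eq_monomial T).symm
  obtain ⟨τ, ρ, hτρ⟩ := exists_of_rowProd_eq _ _ hc
  have : T = fun i j => (Classical.choose hx) (τ i) (ρ i j) := by
    funext i j; exact hτρ i j
  conv_rhs => rw [this]
  rw [hinv]

end desc

/-- Every multiset of size `a` is the image of a function on `Fin a`. -/
lemma exists_fun_of_multiset {α : Type*} (s : Multiset α) {a : ℕ} (hs : Multiset.card s = a) :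
    ∃ f : Fin a → α, Multiset.map f univ.val = s := by
  subst hs
  induction s using Quot.ind with
  | _ l =>
    refine ⟨fun j => l.get (Fin.cast (by simp) j), ?_⟩
    rw [Fin.univ_val_map]
    have : List.ofFn (fun j : Fin (Multiset.card (Quot.mk _ l : Multiset α)) =>
        l.get (Fin.cast (by simp) j)) = l := by
      apply List.ext_getElem
      · simp
      · intro i h1 h2
        simp
    rw [this]
    rfl

lemma exists_rowMon {n b : ℕ} (m : Mon n b) : ∃ f : Fin b → Fin n, rowMon f = m := by
  obtain ⟨f, hf⟩ := exists_fun_of_multiset m.1 m.2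
  exact ⟨f, Subtype.ext hf⟩

/-- A finitely supported exponent vector of total degree `a` comes from a function on `Fin a`. -/
lemma exists_fun_of_degree {α : Type*} (e : α →₀ ℕ) {a : ℕ} (he : e.degree = a) :
    ∃ μ : Fin a → α, (∑ i, Finsupp.single (μ i) 1 : α →₀ ℕ) = e := by
  classical
  have hc : Multiset.card (Finsupp.toMultiset e) = a := by
    rw [Finsupp.card_toMultiset, ← he]
    rfl
  obtain ⟨μ, hμ⟩ := exists_fun_of_multiset _ hc
  refine ⟨μ, ?_⟩
  ext x
  rw [Finsupp.finsetSum_apply]
  have h2 := congrArg (Multiset.count x) hμ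
  rw [Finsupp.count_toMultiset, Multiset.count_map] at h2
  rw [← h2]
  simp [Finsupp.single_apply, Finset.sum_boole, Finset.card, Finset.filter_val, eq_comm]

lemma exists_array_of_degree {n a b : ℕ} (e : Mon n b →₀ ℕ) (he : e.degree = a) :
    ∃ T : Fin a → Fin b → Fin n, rowProd T = monomial e 1 := by
  obtain ⟨μ, hμ⟩ := exists_fun_of_degree e he
  have h2 : ∀ i, ∃ f : Fin b → Fin n, rowMon f = μ i := fun i => exists_rowMon (μ i)
  choose T hT using h2
  refine ⟨T, ?_⟩
  rw [rowProd_eq_monomial]
  congr 2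
  rw [← hμ]
  unfold expOf
  simp [hT]

lemma mem_span_rowProd {n a b : ℕ} {P : Pl n b} (hP : P.IsHomogeneous a) :
    P ∈ Submodule.span ℂ (Set.range (rowProd : (Fin a → Fin b → Fin n) → Pl n b)) := by
  classical
  rw [P.as_sum]
  refine Submodule.sum_mem _ fun e he => ?_
  have hd : e.degree = a := by
    by_contra hne
    exact (mem_support_iff.1 he) (hP.coeff_eq_zero hne)
  obtain ⟨T, hT⟩ := exists_array_of_degree e hd
  have : monomial e (coeff e P) = coeff e P • monomial e (1:ℂ) := by
    rw [smul_monomial]; simp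
  rw [this, ← hT]
  exact Submodule.smul_mem _ _ (Submodule.subset_span ⟨T, rfl⟩)

variable {R : Type*} [CommRing R]

/-- The permanent attached to a row. -/
noncomputable def per {n b : ℕ} (w : Fin b → Fin n → R) (f : Fin b → Fin n) : R :=
  ∑ ρ : Equiv.Perm (Fin b), ∏ s, w s (f (ρ s))

lemma per_perm {n b : ℕ} (w : Fin b → Fin n → R) (f : Fin b → Fin n) (κ : Equiv.Perm (Fin b)) :
    per w (fun j => f (κ j)) = per w f := by
  unfold per
  exact Fintype.sum_equiv (Equiv.mulLeft κ) _ _ (fun ρ => by simp)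

/-- The permanent as a function of the monomial. -/
noncomputable def gOf {n b : ℕ} (w : Fin b → Fin n → R) (m : Mon n b) : R :=
  per w (Classical.choose (exists_rowMon m))

lemma gOf_rowMon {n b : ℕ} (w : Fin b → Fin n → R) (f : Fin b → Fin n) :
    gOf w (rowMon f) = per w f := by
  unfold gOf
  have h := Classical.choose_spec (exists_rowMon (rowMon f))
  obtain ⟨κ, hκ⟩ := exists_perm_of_rowMon_eq _ _ h
  have : f = fun j => (Classical.choose (exists_rowMon (rowMon f))) (κ j) := by
    funext j; exact hκ j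
  conv_rhs => rw [this]
  rw [per_perm]

/-- The symmetrized evaluation on `b × a` arrays. -/
noncomputable def phiArr {n a b : ℕ} (w : Fin b → Fin n → R) (U : Fin b → Fin a → Fin n) : R :=
  ∑ τ : Equiv.Perm (Fin b), ∏ s, ∏ i, w s (U (τ s) i)

lemma phiArr_perm {n a b : ℕ} (w : Fin b → Fin n → R) (U : Fin b → Fin a → Fin n)
    (τ' : Equiv.Perm (Fin b)) (ρ : Fin b → Equiv.Perm (Fin a)) :
    phiArr w (fun s i => U (τ' s) (ρ s i)) = phiArr w U := by
  unfold phiArr
  refine Fintype.sum_equiv (Equiv.mulLeft τ') _ _ fun τ => ?_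
  refine Finset.prod_congr rfl fun s _ => ?_
  simp only [Equiv.coe_mulLeft, Equiv.Perm.coe_mul, Function.comp_apply]
  exact Fintype.prod_equiv (ρ (τ s)) _ _ fun i => rfl

/-- Composite of the Foulkes-Howe formula with the symmetrized evaluation. -/
theorem phiArr_psi {n a b : ℕ} (w : Fin b → Fin n → R) (T : Fin a → Fin b → Fin n) :
    ∑ σ : Fin a → Equiv.Perm (Fin b), phiArr w (fun j i => T i (σ i j)) =
      (b.factorial : R) * ∏ i, per w (T i) := by
  classical
  unfold phiArr
  rw [Finset.sum_comm]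
  have key : ∀ τ : Equiv.Perm (Fin b),
      ∑ σ : Fin a → Equiv.Perm (Fin b), ∏ s, ∏ i, w s (T i (σ i (τ s))) = ∏ i, per w (T i) := by
    intro τ
    have h1 : ∀ σ : Fin a → Equiv.Perm (Fin b),
        ∏ s, ∏ i, w s (T i (σ i (τ s))) = ∏ i, ∏ s, w s (T i (σ i (τ s))) := fun σ =>
      Finset.prod_comm
    simp_rw [h1]
    have h2 : ∏ i, per w (T i) =
        ∏ i, ∑ ρ : Equiv.Perm (Fin b), ∏ s, w s (T i (ρ (τ s))) := by
      refine Finset.prod_congr rfl fun i _ => ?_
      unfold per
      exact (Fintype.sum_equiv (Equiv.mulRight τ) _ _ (fun ρ => by simp)).symm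
    rw [h2, Finset.prod_univ_sum, Fintype.piFinset_univ]
  simp_rw [key]
  rw [Finset.sum_const, Finset.card_univ, Fintype.card_perm, Fintype.card_fin, nsmul_eq_mul]

end Vale.Agent.Lib.P181
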