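import Mathlib
import Vale.Agent.Lib.P181.Perm

open Finset MvPolynomial

namespace Vale.Agent.Lib.P181

variable {R : Type*} [CommRing R] [Algebra ℂ R]

lemma aeval_rowProd {n a b : ℕ} (w : Fin b → Fin n → R) (T : Fin a → Fin b → Fin n) :
    aeval (gOf w) (rowProd T) = ∏ i, per w (T i) := by
  unfold rowProd
  rw [map_prod]
  refine Finset.prod_congr rfl fun i _ => ?_
  rw [aeval_X, gOf_rowMon]

theorem descLin_foulkes {n a b : ℕ} (w : Fin b → Fin n → R) (P : Pl n b) (hP : P.IsHomogeneous a) :
    descLin b a n (phiArr w) (foulkes a b n P) = (b.factorial : R) * aeval (gOf w) P := by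
  have hs := mem_span_rowProd (n := n) (a := a) (b := b) hP
  clear hP
  induction hs using Submodule.span_induction with
  | mem x hx =>
    obtain ⟨T, rfl⟩ := hx
    rw [foulkes_rowProd, aeval_rowProd]
    unfold psiArr
    rw [map_sum]
    rw [← phiArr_psi w T]
    refine Finset.sum_congr rfl fun σ _ => ?_
    exact descLin_rowProd (phiArr w) (fun U τ ρ => phiArr_perm w U τ ρ) _
  | zero => simp
  | add x y _ _ hx hy => 
    rw [map_add, map_add, map_add, hx, hy, mul_add]
  | smul c x _ hx =>
    rw [map_smul, map_smul, map_smul, hx, mul_smul_comm]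

theorem aeval_gOf_eq_zero {n a b : ℕ} (w : Fin b → Fin n → R) (P : Pl n b)
    (hP : P.IsHomogeneous a) (h0 : foulkes a b n P = 0) : aeval (gOf w) P = 0 := by
  have h := descLin_foulkes w P hP
  rw [h0, map_zero] at h
  have hu : IsUnit (b.factorial : R) := by
    have : IsUnit (b.factorial : ℂ) := by
      rw [isUnit_iff_ne_zero]
      exact_mod_cast b.factorial_ne_zero
    have h2 := this.map (algebraMap ℂ R)
    simpa using h2
  exact (hu.mul_right_eq_zero.1 h.symm)

end Vale.Agent.Lib.P181
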