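import Mathlib
import Vale.Agent.Lib.P181.Perm

open Finset MvPolynomial

namespace Vale.Agent.Lib.P181

section pushing

variable {S A : Type*}

/-- The exponent vector `x` placed at the point `s`. -/
noncomputable def pushE (s : S) (x : A →₀ ℕ) : S × A →₀ ℕ :=
  x.mapDomain (Prod.mk s)

lemma pushE_apply_same (s : S) (x : A →₀ ℕ) (l : A) : pushE s x (s, l) = x l := by
  unfold pushE
  exact Finsupp.mapDomain_apply (Prod.mk_right_injective s) x l

lemma pushE_apply_ne {s s' : S} (x : A →₀ ℕ) (l : A) (h : s ≠ s') :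
    pushE s x (s', l) = 0 := by
  unfold pushE
  apply Finsupp.mapDomain_of_notMem_range
  rintro ⟨y, hy⟩
  exact h (congrArg Prod.fst hy)

lemma pushE_apply [DecidableEq S] (s s' : S) (x : A →₀ ℕ) (l : A) :
    pushE s x (s', l) = if s = s' then x l else 0 := by
  split_ifs with h
  · subst h; exact pushE_apply_same s x l
  · exact pushE_apply_ne x l h

lemma sum_pushE_apply [DecidableEq S] {r : ℕ} (ψ : Fin r → S) (ν : Fin r → A →₀ ℕ) (s : S) (l : A) :
    (∑ i, pushE (ψ i) (ν i)) (s, l) = ∑ i, if ψ i = s then ν i l else 0 := by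
  rw [Finsupp.finsetSum_apply]
  exact Finset.sum_congr rfl fun i _ => pushE_apply _ _ _ _

end pushing

/-- The key rigidity statement. -/
lemma rigid {S A α : Type*} [DecidableEq S] {q q' : ℕ} (hq : q' ≤ q)
    (c : α → A →₀ ℕ) (hinj : Function.Injective c) (hne : ∀ x, c x ≠ 0)
    (μ : Fin q → α) (μ' : Fin q' → α) (ι : Fin q → S) (hι : Function.Injective ι)
    (φ : Fin q' → S)
    (h : ∑ i, pushE (φ i) (c (μ' i)) = ∑ i, pushE (ι i) (c (μ i))) :
    (∑ i, Finsupp.single (μ' i) 1 : α →₀ ℕ) = ∑ i, Finsupp.single (μ i) 1 := by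
  classical
  have hslice : ∀ i l, (∑ i', if φ i' = ι i then c (μ' i') l else 0) = c (μ i) l := by
    intro i l
    have h1 := DFunLike.congr_fun h (ι i, l)
    rw [sum_pushE_apply, sum_pushE_apply] at h1
    rw [h1, Finset.sum_eq_single i]
    · simp
    · intro i' _ hi'
      rw [if_neg]
      exact fun h2 => hi' (hι h2)
    · simp
  have hex : ∀ i, ∃ i', φ i' = ι i := by
    intro i
    obtain ⟨l, hl⟩ := Finsupp.ne_iff.1 (hne (μ i))
    simp only [Finsupp.coe_zero, Pi.zero_apply] at hl
    rw [← hslice i l] at hl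
    obtain ⟨i', _, hi'⟩ := Finset.exists_ne_zero_of_sum_ne_zero hl
    refine ⟨i', ?_⟩
    by_contra hcon
    exact hi' (if_neg hcon)
  choose g hg using hex
  have hginj : Function.Injective g := by
    intro i j hij
    apply hι
    rw [← hg i, ← hg j, hij]
  have hgbij : Function.Bijective g := by
    rw [Fintype.bijective_iff_injective_and_card]
    refine ⟨hginj, ?_⟩
    have := Fintype.card_le_of_injective g hginj
    simp only [Fintype.card_fin] at this ⊢
    omega
  have hval : ∀ i, μ' (g i) = μ i := by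
    intro i
    apply hinj
    ext l
    rw [← hslice i l, Finset.sum_eq_single (g i)]
    · rw [if_pos (hg i)]
    · intro i' _ hi'
      obtain ⟨i'', rfl⟩ := hgbij.2 i'
      rw [if_neg]
      intro h2
      rw [hg] at h2
      exact hi' (congrArg g (hι h2))
    · simp
  rw [← hgbij.sum_comp]
  simp [hval]

variable {S A α : Type*} [Fintype S] [DecidableEq S]

/-- The polarized power sum with exponent vector `x`. -/
noncomputable def pc (x : A →₀ ℕ) : MvPolynomial (S × A) ℂ :=
  ∑ s, monomial (pushE s x) 1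

omit [DecidableEq S] in
lemma prod_pc {q : ℕ} (ν : Fin q → A →₀ ℕ) :
    ∏ i, (pc (ν i) : MvPolynomial (S × A) ℂ) =
      ∑ φ : Fin q → S, monomial (∑ i, pushE (φ i) (ν i)) 1 := by
  classical
  unfold pc
  rw [Finset.prod_univ_sum, Fintype.piFinset_univ]
  refine Finset.sum_congr rfl fun φ _ => ?_
  rw [MvPolynomial.monomial_sum_one]

lemma aeval_pc_of_sum {q : ℕ} (c : α → A →₀ ℕ) (μ : Fin q → α) :
    aeval (fun x => (pc (c x) : MvPolynomial (S × A) ℂ))
        (monomial (∑ i, Finsupp.single (μ i) 1) (1:ℂ)) =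
      ∑ φ : Fin q → S, monomial (∑ i, pushE (φ i) (c (μ i))) 1 := by
  classical
  rw [← prod_pc, MvPolynomial.monomial_sum_one, map_prod]
  refine Finset.prod_congr rfl fun i _ => ?_
  rw [← X, aeval_X]

theorem indep_pc (c : α → A →₀ ℕ) (hinj : Function.Injective c) (hne : ∀ x, c x ≠ 0)
    (N : ℕ) (hN : N ≤ Fintype.card S) :
    LinearIndependent ℂ (fun e : {e : α →₀ ℕ // e.degree ≤ N} =>
      aeval (fun x => (pc (c x) : MvPolynomial (S × A) ℂ)) (monomial e.1 (1:ℂ))) := by
  classical
  rw [linearIndependent_iff']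
  intro t g hg i₀ hi₀
  by_contra hne0
  have htne : (t.filter fun e => g e ≠ 0).Nonempty := ⟨i₀, by simp [hi₀, hne0]⟩
  obtain ⟨e, he, hmax⟩ := Finset.exists_max_image _ (fun e => e.1.degree) htne
  rw [Finset.mem_filter] at he
  -- the parts of `e`
  obtain ⟨μ, hμ⟩ := exists_fun_of_degree e.1 (a := e.1.degree) rfl
  have hqS : Fintype.card (Fin e.1.degree) ≤ Fintype.card S := by
    rw [Fintype.card_fin]; exact e.2.trans hN
  obtain ⟨ι⟩ := Function.Embedding.nonempty_of_card_le hqS
  set u : S × A →₀ ℕ := ∑ i, pushE (ι i) (c (μ i)) with hu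
  have hc := congrArg (coeff u) hg
  rw [coeff_sum, coeff_zero, Finset.sum_eq_single e] at hc
  · rw [coeff_smul, smul_eq_mul, mul_eq_zero] at hc
    refine hc.elim he.2 ?_
    conv at hc => skip
    rw [← hμ, aeval_pc_of_sum, coeff_sum]
    simp only [coeff_monomial]
    rw [Finset.sum_boole]
    have : (univ.filter fun φ : Fin e.1.degree → S =>
        ∑ i, pushE (φ i) (c (μ i)) = u).Nonempty := ⟨ι, by simp [hu]⟩
    exact Nat.cast_ne_zero.2 (Finset.card_ne_zero.2 this)
  · intro e' he' hne'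
    by_cases h0 : g e' = 0
    · rw [coeff_smul, h0, smul_eq_mul, zero_mul]
    rw [coeff_smul, smul_eq_mul]
    have hle : e'.1.degree ≤ e.1.degree := hmax e' (by simp [he', h0])
    obtain ⟨μ', hμ'⟩ := exists_fun_of_degree e'.1 (a := e'.1.degree) rfl
    rw [← hμ', aeval_pc_of_sum, coeff_sum]
    rw [Finset.sum_eq_zero, mul_zero]
    intro φ _
    rw [coeff_monomial, if_neg]
    intro hφ
    apply hne'
    apply Subtype.ext
    rw [← hμ', ← hμ]
    exact rigid hle c hinj hne μ μ' ι ι.injective φ hφ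
  · intro h
    exact absurd he.1 h

end Vale.Agent.Lib.P181
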