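import Mathlib
import Vale.Agent.Lib.P181.Eval
import Vale.Agent.Lib.P181.Indep

open Finset MvPolynomial

namespace Vale.Agent.Lib.P181

variable {b d : ℕ}

/-- The affine chart: the letter `0` is sent to `1`, the letter `l+1` at the point `s` to the
variable `(s,l)`. -/
noncomputable def chart (b d : ℕ) (s : Fin b) : Fin (d + 1) → MvPolynomial (Fin b × Fin d) ℂ :=
  Fin.cons 1 fun l => X (s, l)

@[simp] lemma chart_zero (s : Fin b) : chart b d s 0 = 1 := rfl
@[simp] lemma chart_succ (s : Fin b) (l : Fin d) : chart b d s l.succ = X (s, l) := rfl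

/-- The monomial `e_0^b`. -/
noncomputable def m0 (d b : ℕ) : Mon (d + 1) b := rowMon fun _ => 0

/-- Number of letters different from `0`. -/
def wt (m : Mon (d + 1) b) : ℕ := b - Multiset.count 0 m.1

/-- Exponents of the letters different from `0`. -/
noncomputable def cvec (m : Mon (d + 1) b) : Fin d →₀ ℕ :=
  Finsupp.equivFunOnFinite.symm fun l => Multiset.count l.succ m.1

@[simp] lemma cvec_apply (m : Mon (d + 1) b) (l : Fin d) :
    cvec m l = Multiset.count l.succ m.1 := rfl

lemma count_add_sum (m : Mon (d + 1) b) :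
    Multiset.count 0 m.1 + ∑ l : Fin d, cvec m l = b := by
  have h := Multiset.sum_count_eq_card (s := (univ : Finset (Fin (d + 1)))) (m := m.1)
    (fun a _ => mem_univ a)
  rw [Fin.sum_univ_succ, m.2] at h
  exact h

lemma sum_cvec (m : Mon (d + 1) b) : ∑ l : Fin d, cvec m l = wt m := by
  have := count_add_sum m
  unfold wt
  omega

lemma degree_cvec (m : Mon (d + 1) b) : (cvec m).degree = wt m := by
  rw [Finsupp.degree_eq_sum, sum_cvec]

lemma wt_le (m : Mon (d + 1) b) : wt m ≤ b := Nat.sub_le _ _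

lemma cvec_injective : Function.Injective (cvec : Mon (d + 1) b → _) := by
  intro m m' h
  apply Subtype.ext
  ext x
  induction x using Fin.cases with
  | zero =>
    have h1 := count_add_sum m
    have h2 := count_add_sum m'
    rw [h] at h1
    omega
  | succ l =>
    have := DFunLike.congr_fun h l
    simpa using this

lemma cvec_m0 : cvec (m0 d b) = 0 := by
  ext l
  rw [cvec_apply]
  unfold m0 rowMon
  simp only [Multiset.map_const', card_val, card_univ, Fintype.card_fin, Finsupp.coe_zero,
    Pi.zero_apply]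
  rw [Multiset.count_eq_zero]
  intro h
  exact Fin.succ_ne_zero l (Multiset.eq_of_mem_replicate h)

lemma wt_eq_zero_iff (m : Mon (d + 1) b) : wt m = 0 ↔ m = m0 d b := by
  constructor
  · intro h
    apply cvec_injective
    rw [cvec_m0]
    have h2 : (cvec m).degree = 0 := by rw [degree_cvec, h]
    exact (Finsupp.degree_eq_zero_iff _).1 h2
  · rintro rfl
    rw [← degree_cvec, cvec_m0, map_zero]

/-- The normalized permanents. -/
noncomputable def Ehat (m : Mon (d + 1) b) : MvPolynomial (Fin b × Fin d) ℂ :=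
  ((b.factorial : ℂ)⁻¹) • gOf (chart b d) m

lemma fact_ne : ((b.factorial : ℕ) : ℂ) ≠ 0 := by exact_mod_cast b.factorial_ne_zero

lemma gOf_eq_smul (m : Mon (d + 1) b) :
    gOf (chart b d) m = (b.factorial : ℂ) • Ehat m := by
  unfold Ehat
  rw [smul_smul, mul_inv_cancel₀ fact_ne, one_smul]

lemma Ehat_m0 : Ehat (m0 d b) = 1 := by
  unfold Ehat m0
  rw [gOf_rowMon]
  unfold per
  simp only [chart_zero, prod_const_one, sum_const, card_univ, Fintype.card_perm, Fintype.card_fin]
  rw [← Nat.cast_smul_eq_nsmul ℂ, smul_smul, inv_mul_cancel₀ fact_ne, one_smul]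

/-- Monomials different from `m0`. -/
abbrev Mo (d b : ℕ) := {m : Mon (d + 1) b // m ≠ m0 d b}

/-- The restriction of `wt`. -/
def wtA (x : Mo d b) : ℕ := wt x.1

lemma wtA_ne (x : Mo d b) : wtA x ≠ 0 := fun h => x.2 ((wt_eq_zero_iff _).1 h)

/-- Products of normalized permanents. -/
noncomputable def Afam (e : Mo d b →₀ ℕ) : MvPolynomial (Fin b × Fin d) ℂ :=
  aeval (fun x : Mo d b => Ehat x.1) (monomial e (1:ℂ))

/-- The span of the products of weight `r`. -/
noncomputable def Ar (d b r : ℕ) : Submodule ℂ (MvPolynomial (Fin b × Fin d) ℂ) :=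
  Submodule.span ℂ {x | ∃ e : Mo d b →₀ ℕ, Finsupp.weight wtA e = r ∧ Afam e = x}

lemma one_mem_Ar : (1 : MvPolynomial (Fin b × Fin d) ℂ) ∈ Ar d b 0 := by
  apply Submodule.subset_span
  refine ⟨0, by simp, ?_⟩
  unfold Afam
  simp

lemma mul_mem_Ar {r s : ℕ} {x y : MvPolynomial (Fin b × Fin d) ℂ} (hx : x ∈ Ar d b r)
    (hy : y ∈ Ar d b s) : x * y ∈ Ar d b (r + s) := by
  unfold Ar at hx hy ⊢
  induction hx using Submodule.span_induction with
  | mem x hx =>
    obtain ⟨e, he, rfl⟩ := hx
    induction hy using Submodule.span_induction with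
    | mem y hy =>
      obtain ⟨e', he', rfl⟩ := hy
      apply Submodule.subset_span
      refine ⟨e + e', by rw [map_add, he, he'], ?_⟩
      unfold Afam
      rw [← map_mul, monomial_mul, mul_one]
    | zero => simp
    | add y z _ _ hy hz =>
      rw [mul_add]
      exact Submodule.add_mem _ hy hz
    | smul c y _ hy =>
      rw [mul_smul_comm]
      exact Submodule.smul_mem _ _ hy
  | zero => simp
  | add x z _ _ hx hz =>
    rw [add_mul]
    exact Submodule.add_mem _ hx hz
  | smul c x _ hx =>
    rw [smul_mul_assoc]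
    exact Submodule.smul_mem _ _ hx

lemma Ehat_mem_Ar (m : Mon (d + 1) b) : Ehat m ∈ Ar d b (wt m) := by
  by_cases hm : m = m0 d b
  · subst hm
    rw [Ehat_m0, (wt_eq_zero_iff _).2 rfl]
    exact one_mem_Ar
  · apply Submodule.subset_span
    refine ⟨Finsupp.single ⟨m, hm⟩ 1, ?_, ?_⟩
    · rw [Finsupp.weight_single, one_smul]
      rfl
    · unfold Afam
      rw [← X, aeval_X]

lemma per_mem_Ar (f : Fin b → Fin (d + 1)) : per (chart b d) f ∈ Ar d b (wt (rowMon f)) := by
  rw [← gOf_rowMon, gOf_eq_smul]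
  exact Submodule.smul_mem _ _ (Ehat_mem_Ar _)

end Vale.Agent.Lib.P181
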