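import Mathlib
import Vale.Agent.Lib.P181.Chart

open Finset MvPolynomial

namespace Vale.Agent.Lib.P181

variable {b d : ℕ}

/-- The linear form `∑_l v_l x_{s,l}` at the point `s`. -/
noncomputable def Lv (v : Fin d → ℂ) (s : Fin b) : MvPolynomial (Fin b × Fin d) ℂ :=
  ∑ l, C (v l) * X (s, l)

/-- The row with letters `ι k + 1` at the places `J k` and `0` elsewhere. -/
noncomputable def rowI {i : ℕ} (J : Fin i ↪ Fin b) (ι : Fin i → Fin d) : Fin b → Fin (d + 1) :=
  Function.extend J (fun k => (ι k).succ) (fun _ => 0)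

lemma rowI_J {i : ℕ} (J : Fin i ↪ Fin b) (ι : Fin i → Fin d) (k : Fin i) :
    rowI J ι (J k) = (ι k).succ :=
  J.injective.extend_apply _ _ _

lemma rowI_not {i : ℕ} (J : Fin i ↪ Fin b) (ι : Fin i → Fin d) (j : Fin b)
    (hj : j ∉ Set.range J) : rowI J ι j = 0 :=
  Function.extend_apply' _ _ _ (by simpa using hj)

lemma wt_rowI {i : ℕ} (J : Fin i ↪ Fin b) (ι : Fin i → Fin d) : wt (rowMon (rowI J ι)) = i := by
  classical
  unfold wt rowMon
  simp only
  rw [Multiset.count_map]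
  have h : (Multiset.filter (fun a => 0 = rowI J ι a) univ.val) =
      (univ.filter fun a => a ∉ (univ.map J)).val := by
    rw [Finset.filter_val]
    refine Multiset.filter_congr fun a _ => ?_
    by_cases ha : a ∈ Set.range J
    · obtain ⟨k, rfl⟩ := ha
      rw [rowI_J]
      simp [(Fin.succ_ne_zero _).symm]
    · rw [rowI_not J ι a ha]
      simpa using ha
  rw [h]
  change b - (univ.filter fun a => a ∉ (univ.map J)).card = i
  rw [Finset.filter_not, Finset.filter_mem_eq_inter, Finset.univ_inter,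
    Finset.card_sdiff_of_subset (Finset.subset_univ _)]
  simp only [card_univ, Fintype.card_fin, card_map]
  have : i ≤ b := by simpa using Fintype.card_le_of_injective J J.injective
  omega

lemma per_eq {R : Type*} [CommRing R] {n : ℕ} (w : Fin b → Fin n → R) (f : Fin b → Fin n) :
    per w f = ∑ ρ : Equiv.Perm (Fin b), ∏ j, w (ρ j) (f j) := by
  unfold per
  refine Fintype.sum_equiv (Equiv.inv _) _ _ fun ρ => ?_
  have := Equiv.prod_comp ρ (fun j => w (ρ⁻¹ j) (f j))
  simpa using this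

lemma per_rowI {i : ℕ} (J : Fin i ↪ Fin b) (ι : Fin i → Fin d) :
    per (chart b d) (rowI J ι) = ∑ ρ : Equiv.Perm (Fin b), ∏ k, X (ρ (J k), ι k) := by
  rw [per_eq]
  refine Finset.sum_congr rfl fun ρ _ => ?_
  symm
  refine Fintype.prod_of_injective J J.injective _ _ ?_ ?_
  · intro j hj
    rw [rowI_not J ι j hj, chart_zero]
  · intro k
    rw [rowI_J, chart_succ]

lemma sum_rowI {i : ℕ} (J : Fin i ↪ Fin b) (v : Fin d → ℂ) :
    ∑ ι : Fin i → Fin d, (C (∏ k, v (ι k)) : MvPolynomial (Fin b × Fin d) ℂ) *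
        per (chart b d) (rowI J ι) =
      ∑ ρ : Equiv.Perm (Fin b), ∏ k, Lv v (ρ (J k)) := by
  classical
  simp_rw [per_rowI, Finset.mul_sum]
  rw [Finset.sum_comm]
  refine Finset.sum_congr rfl fun ρ _ => ?_
  unfold Lv
  rw [Finset.prod_univ_sum, Fintype.piFinset_univ]
  refine Finset.sum_congr rfl fun ι _ => ?_
  rw [map_prod, Finset.prod_mul_distrib]

lemma exists_perm_map_eq {J₀ t : Finset (Fin b)} (h : J₀.card = t.card) :
    ∃ κ : Equiv.Perm (Fin b), J₀.map κ.toEmbedding = t := by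
  classical
  have e : {x // x ∈ J₀} ≃ {x // x ∈ t} := Fintype.equivOfCardEq (by simpa using h)
  refine ⟨e.extendSubtype, ?_⟩
  apply Finset.eq_of_subset_of_card_le
  · intro x hx
    rw [Finset.mem_map] at hx
    obtain ⟨y, hy, rfl⟩ := hx
    exact e.extendSubtype_mem y hy
  · rw [Finset.card_map, h]

lemma sum_perm_prod {i : ℕ} (J : Fin i ↪ Fin b) :
    ∃ c : ℕ, c ≠ 0 ∧ ∀ {R : Type} [CommRing R] (L : Fin b → R),
      ∑ ρ : Equiv.Perm (Fin b), ∏ k, L (ρ (J k)) =
        c * ∑ t ∈ powersetCard i (univ : Finset (Fin b)), ∏ s ∈ t, L s := by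
  classical
  set J₀ : Finset (Fin b) := univ.map J with hJ₀
  have hJc : J₀.card = i := by simp [hJ₀]
  refine ⟨(univ.filter fun ρ : Equiv.Perm (Fin b) => J₀.map ρ.toEmbedding = J₀).card, ?_, ?_⟩
  · apply Finset.card_ne_zero.2
    exact ⟨1, Finset.mem_filter.2 ⟨mem_univ _, Finset.map_refl⟩⟩
  · intro R _ L
    have h1 : ∀ ρ : Equiv.Perm (Fin b), ∏ k, L (ρ (J k)) = ∏ s ∈ J₀.map ρ.toEmbedding, L s := by
      intro ρ
      rw [Finset.prod_map, hJ₀, Finset.prod_map]
      rfl
    simp_rw [h1]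
    rw [← Finset.sum_fiberwise_of_maps_to (s := univ) (t := powersetCard i univ)
      (g := fun ρ : Equiv.Perm (Fin b) => J₀.map ρ.toEmbedding)]
    · rw [Finset.mul_sum]
      refine Finset.sum_congr rfl fun t ht => ?_
      have hc : J₀.card = t.card := by
        rw [hJc, (Finset.mem_powersetCard.1 ht).2]
      obtain ⟨κ, hκ⟩ := exists_perm_map_eq hc
      have h2 : ∑ ρ ∈ univ.filter (fun ρ : Equiv.Perm (Fin b) => J₀.map ρ.toEmbedding = t),
          ∏ s ∈ J₀.map ρ.toEmbedding, L s =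
          ∑ ρ ∈ univ.filter (fun ρ : Equiv.Perm (Fin b) => J₀.map ρ.toEmbedding = t),
            ∏ s ∈ t, L s := by
        refine Finset.sum_congr rfl fun ρ hρ => ?_
        rw [(Finset.mem_filter.1 hρ).2]
      rw [h2, Finset.sum_const, nsmul_eq_mul]
      congr 2
      symm
      have hmap : ∀ ρ : Equiv.Perm (Fin b), J₀.map (κ * ρ).toEmbedding =
          (J₀.map ρ.toEmbedding).map κ.toEmbedding := by
        intro ρ
        exact (Finset.map_map ρ.toEmbedding κ.toEmbedding J₀).symm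
      refine Finset.card_equiv (Equiv.mulLeft κ) fun ρ => ?_
      simp only [Finset.mem_filter, Finset.mem_univ, true_and, Equiv.coe_mulLeft]
      rw [hmap, ← hκ, Finset.map_inj]
    · intro ρ _
      rw [Finset.mem_powersetCard]
      refine ⟨Finset.subset_univ _, ?_⟩
      rw [Finset.card_map, hJc]

lemma aeval_esymm_mem (v : Fin d → ℂ) {i : ℕ} (hi : i ≤ b) :
    aeval (Lv v : Fin b → _) (esymm (Fin b) ℂ i) ∈ Ar d b i := by
  classical
  set J : Fin i ↪ Fin b := Fin.castLEEmb hi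
  obtain ⟨c, hc, hL⟩ := sum_perm_prod J
  have h1 := sum_rowI J v
  rw [hL] at h1
  have h2 : aeval (Lv v : Fin b → _) (esymm (Fin b) ℂ i) =
      ∑ t ∈ powersetCard i (univ : Finset (Fin b)), ∏ s ∈ t, Lv v s := by
    unfold esymm
    rw [map_sum]
    refine Finset.sum_congr rfl fun t _ => ?_
    rw [map_prod]
    simp
  rw [h2]
  have hc' : ((c : ℕ) : ℂ) ≠ 0 := Nat.cast_ne_zero.2 hc
  have h3 : ∑ t ∈ powersetCard i (univ : Finset (Fin b)), ∏ s ∈ t, Lv v s =
      ((c : ℂ)⁻¹) • ∑ ι : Fin i → Fin d, (C (∏ k, v (ι k)) : MvPolynomial (Fin b × Fin d) ℂ) *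
        per (chart b d) (rowI J ι) := by
    rw [h1, ← nsmul_eq_mul, ← Nat.cast_smul_eq_nsmul ℂ, smul_smul, inv_mul_cancel₀ hc', one_smul]
  rw [h3]
  refine Submodule.smul_mem _ _ (Submodule.sum_mem _ fun ι _ => ?_)
  rw [C_mul']
  refine Submodule.smul_mem _ _ ?_
  have := per_mem_Ar (rowI J ι)
  rwa [wt_rowI] at this

end Vale.Agent.Lib.P181
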