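import Mathlib
import Vale.Agent.Lib.P181.Newton

open Finset MvPolynomial

namespace Vale.Agent.Lib.P181

variable {b d : ℕ}

lemma neg_one_pow_mul_mem {r n : ℕ} {x : MvPolynomial (Fin b × Fin d) ℂ} (hx : x ∈ Ar d b r) :
    (-1) ^ n * x ∈ Ar d b r := by
  rcases neg_one_pow_eq_or (MvPolynomial (Fin b × Fin d) ℂ) n with h | h
  · rw [h, one_mul]; exact hx
  · rw [h, neg_one_mul]; exact Submodule.neg_mem _ hx

lemma aeval_psum_mem (v : Fin d → ℂ) (r : ℕ) (h0 : 0 < r) (hr : r ≤ b) :
    aeval (Lv v : Fin b → _) (psum (Fin b) ℂ r) ∈ Ar d b r := by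
  induction r using Nat.strong_induction_on with
  | _ r ih =>
    rw [psum_eq_mul_esymm_sub_sum (Fin b) ℂ r h0, map_sub]
    refine Submodule.sub_mem _ ?_ ?_
    · rw [map_mul, map_mul, map_pow, map_neg, map_one, map_natCast]
      rw [mul_assoc]
      apply neg_one_pow_mul_mem
      rw [← nsmul_eq_mul]
      exact Submodule.smul_of_tower_mem _ _ (aeval_esymm_mem v hr)
    · rw [map_sum]
      refine Submodule.sum_mem _ fun a ha => ?_
      obtain ⟨ha1, ha2⟩ := Finset.mem_filter.1 ha
      have hsum : a.1 + a.2 = r := Finset.HasAntidiagonal.mem_antidiagonal.1 ha1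
      have h3 : 0 < a.1 := ha2.1
      have h4 : a.1 < r := ha2.2
      rw [map_mul, map_mul, map_pow, map_neg, map_one, mul_assoc]
      apply neg_one_pow_mul_mem
      rw [← hsum]
      exact mul_mem_Ar (aeval_esymm_mem v (by omega))
        (ih a.2 (by omega) (by omega) (by omega))

/-- A function on `Fin d` as a finitely supported function. -/
noncomputable abbrev toF (k : Fin d → ℕ) : Fin d →₀ ℕ := Finsupp.equivFunOnFinite.symm k

lemma monomial_pushE (s : Fin b) (x : Fin d →₀ ℕ) :
    (monomial (pushE s x) (1:ℂ) : MvPolynomial (Fin b × Fin d) ℂ) = ∏ l, X (s, l) ^ x l := by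
  have h : monomial (pushE s x) (1:ℂ) = rename (Prod.mk s) (monomial x (1:ℂ)) := by
    rw [rename_monomial]; rfl
  rw [h, monomial_eq, map_one, one_mul, Finsupp.prod_fintype _ _ (by simp), map_prod]
  refine Finset.prod_congr rfl fun l _ => ?_
  rw [map_pow, rename_X]

lemma aeval_psum_eq (v : Fin d → ℂ) (r : ℕ) :
    aeval (Lv v : Fin b → _) (psum (Fin b) ℂ r) =
      ∑ k ∈ piAntidiag (univ : Finset (Fin d)) r,
        ((Nat.multinomial univ k : ℂ) * ∏ l, v l ^ k l) • pc (toF k) := by
  classical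
  unfold psum
  rw [map_sum]
  simp only [map_pow, aeval_X]
  unfold Lv pc
  simp_rw [Finset.sum_pow_eq_sum_piAntidiag, Finset.smul_sum]
  rw [Finset.sum_comm]
  refine Finset.sum_congr rfl fun k _ => ?_
  refine Finset.sum_congr rfl fun s _ => ?_
  rw [monomial_pushE, smul_eq_C_mul, map_mul, map_natCast, map_prod, mul_assoc]
  congr 1
  rw [← Finset.prod_mul_distrib]
  refine Finset.prod_congr rfl fun l _ => ?_
  rw [mul_pow, map_pow]
  rfl

/-- Polarization. -/
lemma pc_mem (k : Fin d → ℕ) (r : ℕ) (hk : ∑ l, k l = r) (h0 : 0 < r) (hr : r ≤ b) :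
    (pc (toF k) : MvPolynomial (Fin b × Fin d) ℂ) ∈ Ar d b r := by
  classical
  by_contra hnot
  obtain ⟨φ, hφ, hle⟩ := Submodule.exists_le_ker_of_notMem hnot
  set F : MvPolynomial (Fin d) ℂ := ∑ k' ∈ piAntidiag (univ : Finset (Fin d)) r,
    monomial (toF k') ((Nat.multinomial univ k' : ℂ) * φ (pc (toF k'))) with hF
  have hF0 : F = 0 := by
    apply MvPolynomial.funext
    intro v
    rw [map_zero, hF, map_sum]
    have h1 := hle (aeval_psum_mem v r h0 hr)
    rw [LinearMap.mem_ker, aeval_psum_eq, map_sum] at h1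
    rw [← h1]
    refine Finset.sum_congr rfl fun k' _ => ?_
    rw [eval_monomial, map_smul, smul_eq_mul, Finsupp.prod_fintype _ _ (by simp)]
    simp only [Finsupp.equivFunOnFinite_symm_apply_apply]
    ring
  have hc := congrArg (coeff (toF k)) hF0
  rw [hF, coeff_sum, coeff_zero, Finset.sum_eq_single k] at hc
  · rw [coeff_monomial, if_pos rfl, mul_eq_zero] at hc
    refine hc.elim (fun h => ?_) hφ
    have := Nat.multinomial_pos (s := (univ : Finset (Fin d))) (f := k)
    exact absurd h (Nat.cast_ne_zero.2 this.ne')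
  · intro k' _ hne
    rw [coeff_monomial, if_neg]
    intro h
    exact hne (Finsupp.equivFunOnFinite.symm.injective h)
  · intro h
    exact absurd (by simp [hk]) h

lemma pc_cvec_mem (x : Mo d b) : (pc (cvec x.1) : MvPolynomial (Fin b × Fin d) ℂ) ∈ Ar d b (wtA x) := by
  have h : cvec x.1 = toF (fun l => cvec x.1 l) := by
    ext l; rfl
  rw [h]
  exact pc_mem _ _ (sum_cvec x.1) (Nat.pos_of_ne_zero (wtA_ne x)) (wt_le x.1)

/-- Products of polarized power sums. -/
noncomputable def Bfam (e : Mo d b →₀ ℕ) : MvPolynomial (Fin b × Fin d) ℂ :=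
  aeval (fun x : Mo d b => (pc (cvec x.1) : MvPolynomial (Fin b × Fin d) ℂ)) (monomial e (1:ℂ))

lemma Bfam_mem (e : Mo d b →₀ ℕ) : Bfam e ∈ Ar d b (Finsupp.weight wtA e) := by
  induction e using Finsupp.induction_linear with
  | zero =>
    unfold Bfam
    simpa using one_mem_Ar
  | add f g hf hg =>
    unfold Bfam at *
    rw [← mul_one (1:ℂ), ← monomial_mul, map_mul, map_add]
    exact mul_mem_Ar hf hg
  | single x n =>
    unfold Bfam
    rw [Finsupp.weight_single, X_pow_eq_monomial.symm, map_pow, aeval_X, smul_eq_mul]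
    induction n with
    | zero => simpa using one_mem_Ar
    | succ n ih =>
      rw [pow_succ, add_mul, one_mul]
      exact mul_mem_Ar ih (pc_cvec_mem x)

end Vale.Agent.Lib.P181
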