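import Mathlib
import Vale.Agent.Lib.P181.Polar

open Finset MvPolynomial

namespace Vale.Agent.Lib.P181

variable {b d : ℕ}

lemma degree_le_weight (e : Mo d b →₀ ℕ) : e.degree ≤ Finsupp.weight wtA e := by
  classical
  rw [Finsupp.degree_apply, Finsupp.weight_apply, Finsupp.sum]
  refine Finset.sum_le_sum fun x _ => ?_
  rw [smul_eq_mul]
  exact Nat.le_mul_of_pos_right _ (Nat.pos_of_ne_zero (wtA_ne x))

/-- The index set of products of weight `k`. -/
abbrev Ik (d b k : ℕ) := {e : Mo d b →₀ ℕ // Finsupp.weight wtA e = k}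

instance (k : ℕ) : Finite (Ik d b k) := by
  have h := Finsupp.finite_of_nat_weight_le (σ := Mo d b) wtA wtA_ne k
  exact (h.subset (fun e (he : Finsupp.weight wtA e = k) => he.le)).to_subtype

lemma cvec_val_injective : Function.Injective (fun x : Mo d b => cvec x.1) :=
  fun _ _ h => Subtype.ext (cvec_injective h)

lemma cvec_val_ne (x : Mo d b) : cvec x.1 ≠ 0 := by
  intro h
  apply wtA_ne x
  change wt x.1 = 0
  rw [← degree_cvec, h, map_zero]

theorem indep_Bfam (k : ℕ) (hk : k ≤ b) :
    LinearIndependent ℂ (fun e : Ik d b k => Bfam e.1) := by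
  have h := indep_pc (S := Fin b) (A := Fin d) (α := Mo d b) (fun x => cvec x.1)
    cvec_val_injective cvec_val_ne k (by simpa using hk)
  exact h.comp (fun e : Ik d b k => ⟨e.1, (degree_le_weight _).trans e.2.le⟩)
    (fun e e' hh => Subtype.ext (congrArg (fun z => z.1) hh))

theorem indep_Afam (k : ℕ) (hk : k ≤ b) :
    LinearIndependent ℂ (fun e : Ik d b k => Afam e.1) := by
  classical
  let _ := Fintype.ofFinite (Ik d b k)
  have hB := indep_Bfam (d := d) k hk
  rw [linearIndependent_iff_card_eq_finrank_span]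
  apply le_antisymm
  · rw [linearIndependent_iff_card_eq_finrank_span.1 hB]
    unfold Set.finrank
    haveI : Module.Finite ℂ (Submodule.span ℂ (Set.range fun e : Ik d b k => Afam e.1)) :=
      FiniteDimensional.span_of_finite ℂ (Set.finite_range _)
    apply Submodule.finrank_mono
    rw [Submodule.span_le]
    rintro _ ⟨e, rfl⟩
    have h1 := Bfam_mem (d := d) (b := b) e.1
    rw [e.2] at h1
    have h2 : Ar d b k ≤ Submodule.span ℂ (Set.range fun e : Ik d b k => Afam e.1) := by
      unfold Ar
      rw [Submodule.span_le]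
      rintro _ ⟨e', he', rfl⟩
      exact Submodule.subset_span ⟨⟨e', he'⟩, rfl⟩
    exact h2 h1
  · exact finrank_range_le_card _

/-- The restriction of exponents. -/
noncomputable abbrev resE (e : Mon (d + 1) b →₀ ℕ) : Mo d b →₀ ℕ :=
  Finsupp.subtypeDomain (fun m => m ≠ m0 d b) e

lemma aeval_monomial_gOf (e : Mon (d + 1) b →₀ ℕ) :
    aeval (gOf (chart b d)) (monomial e (1:ℂ)) =
      ((b.factorial : ℂ) ^ e.degree) • Afam (resE e) := by
  classical
  unfold Afam
  rw [aeval_monomial, aeval_monomial, map_one, one_mul, one_mul,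
    Finsupp.prod_fintype _ _ (by simp), Finsupp.prod_fintype _ _ (by simp)]
  simp only [gOf_eq_smul, smul_pow]
  rw [Finset.prod_smul, Finsupp.degree_eq_sum, Finset.prod_pow_eq_pow_sum]
  congr 1
  rw [Fintype.prod_eq_mul_prod_subtype_ne _ (m0 d b), Ehat_m0, one_pow, one_mul]
  rfl

lemma resE_inj {e e' : Mon (d + 1) b →₀ ℕ} (h : resE e = resE e') (hd : e.degree = e'.degree) :
    e = e' := by
  classical
  have hh : ∀ m, m ≠ m0 d b → e m = e' m := fun m hm => by
    have := DFunLike.congr_fun h ⟨m, hm⟩
    simpa using this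
  ext m
  by_cases hm : m = m0 d b
  · subst hm
    rw [Finsupp.degree_eq_sum, Finsupp.degree_eq_sum] at hd
    rw [Fintype.sum_eq_add_sum_subtype_ne _ (m0 d b), Fintype.sum_eq_add_sum_subtype_ne _ (m0 d b)] at hd
    have : ∑ i : {i // i ≠ m0 d b}, e i.1 = ∑ i : {i // i ≠ m0 d b}, e' i.1 :=
      Finset.sum_congr rfl fun i _ => hh i.1 i.2
    omega
  · exact hh m hm

lemma weight_resE (e : Mon (d + 1) b →₀ ℕ) :
    Finsupp.weight wtA (resE e) + (Finsupp.weight content e) 0 = e.degree * b := by
  classical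
  rw [Finsupp.weight_eq_sum, Finsupp.weight_eq_sum, Finsupp.degree_eq_sum, Finset.sum_mul,
    Finset.sum_apply]
  simp only [Pi.smul_apply, smul_eq_mul]
  have h1 : ∑ x : Mo d b, (resE e) x * wtA x = ∑ m, e m * wt m := by
    rw [Fintype.sum_eq_add_sum_subtype_ne (fun m => e m * wt m) (m0 d b)]
    rw [(wt_eq_zero_iff _).2 rfl, mul_zero, zero_add]
    rfl
  rw [h1, ← Finset.sum_add_distrib]
  refine Finset.sum_congr rfl fun m _ => ?_
  rw [← mul_add]
  congr 1
  have := count_add_sum m
  have h2 := sum_cvec m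
  unfold content
  omega

/-- The main injectivity statement on weight spaces in the stable range. -/
theorem foulkes_injOn {a b d : ℕ} {lam : Fin (d + 1) → ℕ} (hlam : a * b ≤ lam 0 + b)
    {P : Pl (d + 1) b} (hP : P ∈ weightSpace a b (d + 1) lam) (h0 : foulkes a b (d + 1) P = 0) :
    P = 0 := by
  classical
  obtain ⟨hP1, hP2⟩ := hP
  rw [SetLike.mem_coe, mem_homogeneousSubmodule] at hP1
  rw [SetLike.mem_coe, mem_weightedHomogeneousSubmodule] at hP2
  have hE := aeval_gOf_eq_zero (chart b d) P hP1 h0
  -- the exponents in the support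
  have hdeg : ∀ e ∈ P.support, e.degree = a := by
    intro e he
    by_contra hne
    exact (mem_support_iff.1 he) (hP1.coeff_eq_zero hne)
  have hwt : ∀ e ∈ P.support, Finsupp.weight wtA (resE e) = a * b - lam 0 := by
    intro e he
    have h1 := weight_resE e
    rw [hP2 (mem_support_iff.1 he), hdeg e he] at h1
    omega
  set k := a * b - lam 0 with hk
  have hkb : k ≤ b := by omega
  have hLI := indep_Afam (d := d) k hkb
  let r : P.support → Ik d b k := fun e => ⟨resE e.1, hwt e.1 e.2⟩
  have hr : Function.Injective r := by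
    intro e e' h
    apply Subtype.ext
    apply resE_inj (congrArg (fun z => z.1) h)
    rw [hdeg _ e.2, hdeg _ e'.2]
  have hLI2 := hLI.comp r hr
  rw [Fintype.linearIndependent_iff] at hLI2
  have hsum : ∑ e : P.support, (coeff e.1 P * (b.factorial : ℂ) ^ a) • (Afam (resE e.1)) = 0 := by
    have h5 : aeval (gOf (chart b d)) P =
        ∑ e ∈ P.support, aeval (gOf (chart b d)) (monomial e (coeff e P)) := by
      conv_lhs => rw [P.as_sum]
      rw [map_sum]
    rw [← hE, h5, ← Finset.sum_coe_sort P.support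
      (fun e => aeval (gOf (chart b d)) (monomial e (coeff e P)))]
    refine Finset.sum_congr rfl fun e _ => ?_
    have hm : monomial e.1 (coeff e.1 P) = coeff e.1 P • monomial e.1 (1:ℂ) := by
      rw [smul_monomial]; simp
    rw [hm, map_smul, aeval_monomial_gOf, hdeg _ e.2, smul_smul]
  have hco := hLI2 _ hsum
  by_contra hne
  obtain ⟨e, he⟩ : P.support.Nonempty := by
    rw [Finset.nonempty_iff_ne_empty, Ne, support_eq_empty]
    exact hne
  have := hco ⟨e, he⟩
  rw [mul_eq_zero] at this
  rcases this with h | h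
  · exact (mem_support_iff.1 he) h
  · exact absurd h (pow_ne_zero _ fact_ne)

end Vale.Agent.Lib.P181
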