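import Mathlib
import Vale.Agent.Lib.P181.Inject

open Finset MvPolynomial

namespace Vale.Agent.Lib.P181

variable {n a b : ℕ}

lemma rowMon_update (f : Fin b → Fin n) (s : Fin b) (i : Fin n) :
    rowMon (Function.update f s i) = replace i (f s) (rowMon f) := by
  classical
  have hu : (univ : Finset (Fin b)).val = s ::ₘ (univ : Finset (Fin b)).val.erase s :=
    (Multiset.cons_erase (Finset.mem_univ_val s)).symm
  have hm : f s ∈ (rowMon f).1 := by
    unfold rowMon
    exact Multiset.mem_map.2 ⟨s, Finset.mem_univ_val s, rfl⟩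
  have hr : (replace i (f s) (rowMon f)).1 = i ::ₘ (rowMon f).1.erase (f s) := by
    unfold replace
    exact congrArg Subtype.val (dif_pos hm)
  apply Subtype.ext
  rw [hr]
  show Multiset.map (Function.update f s i) univ.val = i ::ₘ (Multiset.map f univ.val).erase (f s)
  conv_lhs => rw [hu, Multiset.map_cons, Function.update_self]
  conv_rhs => rw [hu, Multiset.map_cons, Multiset.erase_cons_head]
  congr 1
  apply Multiset.map_congr rfl
  intro x hx
  have hne : x ≠ s := ((Finset.nodup _).mem_erase_iff.1 hx).1
  exact Function.update_of_ne hne _ _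

lemma count_rowMon (f : Fin b → Fin n) (j : Fin n) :
    Multiset.count j (rowMon f).1 = (univ.filter fun s => f s = j).card := by
  classical
  unfold rowMon
  simp only
  rw [Multiset.count_map]
  simp [Finset.card, Finset.filter_val, eq_comm]

lemma raise_X (i j : Fin n) (f : Fin b → Fin n) :
    raise i j (X (rowMon f)) =
      ∑ s, if f s = j then X (rowMon (Function.update f s i)) else 0 := by
  classical
  unfold raise
  rw [mkDerivation_X, count_rowMon]
  have h : ∑ s, (if f s = j then (X (rowMon (Function.update f s i)) : Pl n b) else 0) =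
      ∑ s ∈ univ.filter (fun s => f s = j), (X (replace i j (rowMon f)) : Pl n b) := by
    rw [Finset.sum_filter]
    refine Finset.sum_congr rfl fun s _ => ?_
    split_ifs with hs
    · rw [rowMon_update, hs]
    · rfl
  rw [h, Finset.sum_const, Nat.cast_smul_eq_nsmul]

lemma derivation_prod {A : Type*} [CommRing A] [Algebra ℂ A] (D : Derivation ℂ A A)
    {ι : Type*} [DecidableEq ι] (t : Finset ι) (x : ι → A) :
    D (∏ r ∈ t, x r) = ∑ r ∈ t, (∏ r' ∈ t.erase r, x r') * D (x r) := by
  induction t using Finset.induction_on with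
  | empty => simp
  | insert r₀ t hr ih =>
    rw [Finset.prod_insert hr, Finset.sum_insert hr, Derivation.leibniz, ih, smul_eq_mul,
      smul_eq_mul, Finset.erase_insert hr, Finset.mul_sum, add_comm]
    congr 1
    refine Finset.sum_congr rfl fun r hrt => ?_
    have hne : r ≠ r₀ := fun h => hr (h ▸ hrt)
    rw [Finset.erase_insert_of_ne hne.symm, Finset.prod_insert, mul_assoc]
    simp [hr]

/-- Update one entry of an array. -/
def upd (T : Fin a → Fin b → Fin n) (r : Fin a) (s : Fin b) (i : Fin n) : Fin a → Fin b → Fin n :=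
  Function.update T r (Function.update (T r) s i)

lemma raise_rowProd (i j : Fin n) (T : Fin a → Fin b → Fin n) :
    raise i j (rowProd T) =
      ∑ r, ∑ s, if T r s = j then rowProd (upd T r s i) else 0 := by
  classical
  unfold rowProd
  rw [derivation_prod]
  refine Finset.sum_congr rfl fun r _ => ?_
  rw [raise_X, Finset.mul_sum]
  refine Finset.sum_congr rfl fun s _ => ?_
  split_ifs with hs
  · have h := Finset.mul_prod_erase univ (fun x => (X (rowMon (upd T r s i x)) : Pl n b))
      (Finset.mem_univ r)
    rw [← h, mul_comm]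
    congr 1
    · unfold upd
      rw [Function.update_self]
    · refine Finset.prod_congr rfl fun r' hr' => ?_
      unfold upd
      rw [Function.update_of_ne (Finset.ne_of_mem_erase hr')]
  · rw [mul_zero]

/-- The transposed array after permuting inside the rows. -/
def twist (T : Fin a → Fin b → Fin n) (σ : Fin a → Equiv.Perm (Fin b)) : Fin b → Fin a → Fin n :=
  fun j r => T r (σ r j)

lemma psiArr_eq (T : Fin a → Fin b → Fin n) : psiArr T = ∑ σ, rowProd (twist T σ) := rfl

lemma twist_upd (T : Fin a → Fin b → Fin n) (σ : Fin a → Equiv.Perm (Fin b)) (r : Fin a)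
    (j' : Fin b) (i : Fin n) :
    twist (upd T r (σ r j') i) σ = upd (twist T σ) j' r i := by
  classical
  funext j'' r''
  unfold twist upd
  by_cases h1 : r'' = r
  · subst h1
    by_cases h2 : j'' = j'
    · subst h2
      simp
    · have h3 : σ r'' j'' ≠ σ r'' j' := fun h => h2 ((σ r'').injective h)
      simp [Function.update_of_ne h2, Function.update_of_ne h3]
  · by_cases h2 : j'' = j'
    · subst h2
      simp [Function.update_of_ne h1]
    · simp [Function.update_of_ne h2, Function.update_of_ne h1]

lemma raise_psiArr (i j : Fin n) (T : Fin a → Fin b → Fin n) :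
    raise i j (psiArr T) = ∑ r, ∑ s, if T r s = j then psiArr (upd T r s i) else 0 := by
  classical
  rw [psiArr_eq, map_sum]
  simp_rw [raise_rowProd, psiArr_eq]
  have h1 : ∀ r s, (if T r s = j then ∑ σ, rowProd (twist (upd T r s i) σ) else 0) =
      ∑ σ, if T r s = j then rowProd (twist (upd T r s i) σ) else 0 := by
    intro r s
    split_ifs <;> simp
  simp_rw [h1]
  have h2 : ∑ r, ∑ s, ∑ σ, (if T r s = j then rowProd (twist (upd T r s i) σ) else 0) =
      ∑ σ, ∑ r, ∑ s, (if T r s = j then rowProd (twist (upd T r s i) σ) else 0) := by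
    calc _ = ∑ r, ∑ σ, ∑ s, (if T r s = j then rowProd (twist (upd T r s i) σ) else 0) :=
            Finset.sum_congr rfl fun r _ => Finset.sum_comm
      _ = _ := Finset.sum_comm
  rw [h2]
  refine Finset.sum_congr rfl fun σ _ => ?_
  rw [Finset.sum_comm]
  refine Finset.sum_congr rfl fun r _ => ?_
  conv_rhs => rw [← Equiv.sum_comp (σ r)]
  refine Finset.sum_congr rfl fun j' _ => ?_
  rw [twist_upd]
  rfl

theorem foulkes_raise (i j : Fin n) (P : Pl n b) (hP : P.IsHomogeneous a) :
    foulkes a b n (raise i j P) = raise i j (foulkes a b n P) := by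
  have hs := mem_span_rowProd (n := n) (a := a) (b := b) hP
  clear hP
  induction hs using Submodule.span_induction with
  | mem x hx =>
    obtain ⟨T, rfl⟩ := hx
    rw [foulkes_rowProd, raise_psiArr, raise_rowProd, map_sum]
    refine Finset.sum_congr rfl fun r _ => ?_
    rw [map_sum]
    refine Finset.sum_congr rfl fun s _ => ?_
    split_ifs
    · rw [foulkes_rowProd]
    · simp
  | zero => simp
  | add x y _ _ hx hy => simp only [map_add, hx, hy]
  | smul c x _ hx => simp only [map_smul, Derivation.map_smul, hx]

/-- How many times each letter occurs in an array. -/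
def cnt (T : Fin a → Fin b → Fin n) : Fin n → ℕ :=
  fun x => ∑ r, ∑ s, if T r s = x then 1 else 0

lemma content_rowMon (f : Fin b → Fin n) (x : Fin n) :
    content (rowMon f) x = ∑ s, if f s = x then 1 else 0 := by
  classical
  unfold content
  rw [count_rowMon, Finset.card_filter]

lemma weight_expOf (T : Fin a → Fin b → Fin n) : Finsupp.weight content (expOf T) = cnt T := by
  classical
  unfold expOf
  rw [map_sum]
  funext x
  rw [Finset.sum_apply]
  unfold cnt
  refine Finset.sum_congr rfl fun r _ => ?_
  rw [Finsupp.weight_single, one_smul, content_rowMon]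

lemma degree_expOf (T : Fin a → Fin b → Fin n) : (expOf T).degree = a := by
  classical
  unfold expOf
  rw [map_sum]
  simp

lemma cnt_twist (T : Fin a → Fin b → Fin n) (σ : Fin a → Equiv.Perm (Fin b)) :
    cnt (twist T σ) = cnt T := by
  funext x
  unfold cnt twist
  rw [Finset.sum_comm]
  refine Finset.sum_congr rfl fun r _ => ?_
  exact Equiv.sum_comp (σ r) (fun s => if T r s = x then 1 else 0)

lemma rowProd_mem_weightSpace (T : Fin a → Fin b → Fin n) :
    rowProd T ∈ weightSpace a b n (cnt T) := by
  rw [rowProd_eq_monomial]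
  constructor
  · rw [SetLike.mem_coe, mem_homogeneousSubmodule]
    exact isHomogeneous_monomial _ (degree_expOf T)
  · rw [SetLike.mem_coe, mem_weightedHomogeneousSubmodule]
    exact isWeightedHomogeneous_monomial _ _ _ (weight_expOf T)

lemma psiArr_mem_weightSpace (T : Fin a → Fin b → Fin n) :
    psiArr T ∈ weightSpace b a n (cnt T) := by
  rw [psiArr_eq]
  refine Submodule.sum_mem _ fun σ _ => ?_
  have := rowProd_mem_weightSpace (twist T σ)
  rwa [cnt_twist] at this

theorem foulkes_mem_weightSpace {lam : Fin n → ℕ} {P : Pl n b} (hP : P ∈ weightSpace a b n lam) :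
    foulkes a b n P ∈ weightSpace b a n lam := by
  classical
  obtain ⟨hP1, hP2⟩ := hP
  rw [SetLike.mem_coe, mem_homogeneousSubmodule] at hP1
  rw [SetLike.mem_coe, mem_weightedHomogeneousSubmodule] at hP2
  rw [P.as_sum, map_sum]
  refine Submodule.sum_mem _ fun e he => ?_
  have hd : e.degree = a := by
    by_contra hne
    exact (mem_support_iff.1 he) (hP1.coeff_eq_zero hne)
  obtain ⟨T, hT⟩ := exists_array_of_degree e hd
  have hm : monomial e (coeff e P) = coeff e P • monomial e (1:ℂ) := by
    rw [smul_monomial]; simp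
  rw [hm, map_smul]
  refine Submodule.smul_mem _ _ ?_
  rw [← hT, foulkes_rowProd]
  have he2 : expOf T = e := by
    rw [rowProd_eq_monomial] at hT
    by_contra hne
    have := congrArg (coeff e) hT
    rw [coeff_monomial, coeff_monomial, if_pos rfl, if_neg hne] at this
    exact zero_ne_one this
  have hc : cnt T = lam := by
    rw [← weight_expOf, he2]
    exact hP2 (mem_support_iff.1 he)
  rw [← hc]
  exact psiArr_mem_weightSpace T

theorem foulkes_mem_hwSpace {lam : Fin n → ℕ} {P : Pl n b} (hP : P ∈ hwSpace a b n lam) :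
    foulkes a b n P ∈ hwSpace b a n lam := by
  obtain ⟨hP1, hP2⟩ := hP
  refine ⟨foulkes_mem_weightSpace hP1, ?_⟩
  have hhom : P.IsHomogeneous a := hP1.1
  simp only [Submodule.mem_iInf, SetLike.mem_coe] at hP2 ⊢
  intro i j hij
  have h := hP2 i j hij
  rw [LinearMap.mem_ker, Derivation.coeFn_coe] at h ⊢
  rw [← foulkes_raise i j P hhom, h, map_zero]

instance finiteDimensional_homogeneous (m c : ℕ) (k : ℕ) :
    FiniteDimensional ℂ (homogeneousSubmodule (Mon m c) ℂ k) := by
  classical
  have hfin : ({e : Mon m c →₀ ℕ | e.degree = k}).Finite := Finsupp.finite_of_degree_eq k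
  have hS : ((fun e : Mon m c →₀ ℕ => (monomial e (1:ℂ) : Pl m c)) ''
      {e : Mon m c →₀ ℕ | e.degree = k}).Finite := hfin.image _
  have hsp := FiniteDimensional.span_of_finite ℂ hS
  refine Submodule.finiteDimensional_of_le (S₂ := Submodule.span ℂ ((fun e : Mon m c →₀ ℕ =>
    (monomial e (1:ℂ) : Pl m c)) '' {e : Mon m c →₀ ℕ | e.degree = k})) ?_
  intro P hP
  rw [mem_homogeneousSubmodule] at hP
  rw [P.as_sum]
  refine Submodule.sum_mem _ fun e he => ?_
  have hd : e.degree = k := by
    by_contra hne
    exact (mem_support_iff.1 he) (hP.coeff_eq_zero hne)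
  have hm : monomial e (coeff e P) = coeff e P • monomial e (1:ℂ) := by
    rw [smul_monomial]; simp
  rw [hm]
  exact Submodule.smul_mem _ _ (Submodule.subset_span ⟨e, hd, rfl⟩)

/-- The multiplicity inequality in the stable range. -/
theorem finrank_hwSpace_le {a b d : ℕ} {lam : Fin (d + 1) → ℕ} (hlam : a * b ≤ lam 0 + b) :
    Module.finrank ℂ (hwSpace a b (d + 1) lam) ≤ Module.finrank ℂ (hwSpace b a (d + 1) lam) := by
  have hfin : FiniteDimensional ℂ (hwSpace b a (d + 1) lam) := by
    refine Submodule.finiteDimensional_of_le (S₂ := homogeneousSubmodule (Mon (d + 1) a) ℂ b) ?_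
    intro P hP
    exact hP.1.1
  let f : hwSpace a b (d + 1) lam →ₗ[ℂ] hwSpace b a (d + 1) lam :=
    (foulkes a b (d + 1)).restrict fun P hP => foulkes_mem_hwSpace hP
  have hf : Function.Injective f := by
    rw [← LinearMap.ker_eq_bot, LinearMap.ker_eq_bot']
    intro P hP
    apply Subtype.ext
    have h1 : foulkes a b (d + 1) P.1 = 0 := congrArg Subtype.val hP
    exact foulkes_injOn hlam P.2.1 h1
  exact LinearMap.finrank_le_finrank_of_injective hf

end Vale.Agent.Lib.P181
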