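import Mathlib
import Vale.Agent.Lib.P181.Band

open MvPolynomial

namespace Vale.Agent.Lib.P181

variable {a n : ℕ}

/-- Polynomials in `a` rows of `n` variables. -/
abbrev TT (a n : ℕ) := MvPolynomial (Fin a × Fin n) ℂ

/-- The linear form with coefficient vector `w` on the row `i`. -/
noncomputable def lin (w : Fin n → ℂ) (i : Fin a) : TT a n := ∑ l, C (w l) * X (i, l)

/-- The product over all rows of the linear form `w`. -/
noncomputable def qf (w : Fin n → ℂ) : TT a n := ∏ i, lin w i

/-- The span of all the `qf w`. -/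
noncomputable def G1 (a n : ℕ) : Submodule ℂ (TT a n) := Submodule.span ℂ (Set.range qf)

lemma qf_mem_G1 (w : Fin n → ℂ) : (qf w : TT a n) ∈ G1 a n := Submodule.subset_span ⟨w, rfl⟩

/-- The span of the variables of the row `i`. -/
noncomputable def rowSp (i : Fin a) : Submodule ℂ (TT a n) :=
  Submodule.span ℂ (Set.range fun l => X (i, l))

/-- Products of `b` variables of each row of `S`. -/
noncomputable def TS (S : Finset (Fin a)) (b : ℕ) : Submodule ℂ (TT a n) := ∏ i ∈ S, rowSp i ^ b

/-- The polynomial `∑_l x_{i,l} τ^l`. -/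
noncomputable def Ur (i : Fin a) : Polynomial (TT a n) :=
  ∑ l : Fin n, Polynomial.C (X (i, l)) * Polynomial.X ^ (l : ℕ)

lemma Ur_coeff_of_le (i : Fin a) (N : ℕ) (h : n ≤ N) : (Ur i : Polynomial (TT a n)).coeff N = 0 := by
  unfold Ur
  rw [Polynomial.finsetSum_coeff]
  refine Finset.sum_eq_zero fun l _ => ?_
  rw [Polynomial.coeff_C_mul, Polynomial.coeff_X_pow, if_neg (by omega), mul_zero]

lemma Ur_coeff (i : Fin a) (l : Fin n) : (Ur i : Polynomial (TT a n)).coeff l = X (i, l) := by
  classical
  unfold Ur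
  rw [Polynomial.finsetSum_coeff, Finset.sum_eq_single l]
  · rw [Polynomial.coeff_C_mul, Polynomial.coeff_X_pow, if_pos rfl, mul_one]
  · intro l' _ hne
    rw [Polynomial.coeff_C_mul, Polynomial.coeff_X_pow, if_neg, mul_zero]
    intro h
    exact hne (Fin.ext h.symm)
  · simp

lemma Ur_natDegree (i : Fin a) : (Ur i : Polynomial (TT a n)).natDegree ≤ n - 1 := by
  rw [Polynomial.natDegree_le_iff_coeff_eq_zero]
  intro N hN
  exact Ur_coeff_of_le i N (by omega)

lemma sp_Ur (i : Fin a) : sp (fun l => (Ur i : Polynomial (TT a n)).coeff l) = rowSp i := by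
  apply le_antisymm
  · rw [Submodule.span_le]
    rintro _ ⟨l, rfl⟩
    by_cases h : l < n
    · have := Ur_coeff (a := a) (n := n) i ⟨l, h⟩
      simp only at this ⊢
      rw [this]
      exact Submodule.subset_span ⟨⟨l, h⟩, rfl⟩
    · simp only
      rw [Ur_coeff_of_le i l (by omega)]
      exact zero_mem _
  · rw [rowSp, Submodule.span_le]
    rintro _ ⟨l, rfl⟩
    have := Ur_coeff (a := a) (n := n) i l
    simp only at this ⊢
    rw [← this]
    exact mem_sp (fun l => (Ur i : Polynomial (TT a n)).coeff l) l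

/-- Product over a set of rows. -/
noncomputable def PS (S : Finset (Fin a)) : Polynomial (TT a n) := ∏ i ∈ S, Ur i

lemma PS_natDegree (S : Finset (Fin a)) : (PS S : Polynomial (TT a n)).natDegree ≤ S.card * (n - 1) := by
  unfold PS
  refine (Polynomial.natDegree_prod_le _ _).trans ?_
  refine (Finset.sum_le_card_nsmul _ _ (n - 1) fun i _ => Ur_natDegree i).trans ?_
  simp

/-- The span of the coefficients of `PS S`. -/
noncomputable def Cs (S : Finset (Fin a)) : Submodule ℂ (TT a n) :=
  Submodule.span ℂ (Set.range fun J => (PS S : Polynomial (TT a n)).coeff J)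

theorem TS_succ_aux (S : Finset (Fin a)) (i₀ : Fin a) (hi : i₀ ∉ S) (b : ℕ)
    (hb : S.card * (n - 1) ≤ b) :
    rowSp i₀ ^ (b + 1) * ((Cs S : Submodule ℂ (TT a n)) * TS S b) ≤
      Cs (insert i₀ S) * (rowSp i₀ ^ b * TS S b) := by
  classical
  have h := band_poly (Ur i₀ : Polynomial (TT a n)) (PS S) n (S.card * (n - 1)) b
    (fun l hl => Ur_coeff_of_le i₀ l hl) (PS_natDegree S) hb (TS S b)
  have hP : (PS (insert i₀ S) : Polynomial (TT a n)) = Ur i₀ * PS S := by
    unfold PS
    rw [Finset.prod_insert hi]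
  rw [sp_Ur] at h
  unfold Cs
  rw [hP]
  exact h

theorem TS_succ (S : Finset (Fin a)) : ∀ b : ℕ, (S.card - 1) * (n - 1) ≤ b →
    (TS S (b + 1) : Submodule ℂ (TT a n)) ≤ Cs S * TS S b := by
  classical
  induction S using Finset.induction_on with
  | empty =>
    intro b _
    unfold TS Cs PS
    simp only [Finset.prod_empty, mul_one]
    rw [Submodule.one_le]
    refine Submodule.subset_span ⟨0, ?_⟩
    simp
  | insert i₀ S hi ih =>
    intro b hb
    rw [Finset.card_insert_of_notMem hi, Nat.add_sub_cancel] at hb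
    have hb2 : (S.card - 1) * (n - 1) ≤ b :=
      le_trans (Nat.mul_le_mul_right _ (Nat.sub_le _ _)) hb
    have h1 := ih b hb2
    have e1 : (TS (insert i₀ S) (b + 1) : Submodule ℂ (TT a n)) =
        rowSp i₀ ^ (b + 1) * TS S (b + 1) := by
      unfold TS
      rw [Finset.prod_insert hi]
    have e2 : (TS (insert i₀ S) b : Submodule ℂ (TT a n)) = rowSp i₀ ^ b * TS S b := by
      unfold TS
      rw [Finset.prod_insert hi]
    rw [e1, e2]
    exact (mul_le_mul_right h1 _).trans (TS_succ_aux S i₀ hi b hb)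

theorem TS_iter (c₀ : ℕ) (hc : (a - 1) * (n - 1) ≤ c₀) (s : ℕ) :
    (TS Finset.univ (c₀ + s) : Submodule ℂ (TT a n)) ≤ Cs Finset.univ ^ s * TS Finset.univ c₀ := by
  induction s with
  | zero => simp
  | succ s ih =>
    have h1 := TS_succ (a := a) (n := n) Finset.univ (c₀ + s)
      (by simp only [Finset.card_univ, Fintype.card_fin]; omega)
    rw [← add_assoc]
    refine h1.trans ((mul_le_mul_right ih _).trans ?_)
    rw [pow_succ', mul_assoc]

end Vale.Agent.Lib.P181
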