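import Mathlib

open Finset

namespace Vale.Agent.Lib.P181

/-- Ryser's formula for the permanent. -/
theorem ryser {R : Type*} [CommRing R] {a : ℕ} (A : Fin a → Fin a → R) :
    ∑ τ : Equiv.Perm (Fin a), ∏ i, A i (τ i) =
      ∑ S : Finset (Fin a), (-1 : R) ^ Sᶜ.card * ∏ i, ∑ j ∈ S, A i j := by
  classical
  -- expand the products
  have h1 : ∀ S : Finset (Fin a), (∏ i, ∑ j ∈ S, A i j) =
      ∑ f : Fin a → Fin a, if ∀ i, f i ∈ S then ∏ i, A i (f i) else 0 := by
    intro S
    rw [Finset.prod_univ_sum]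
    rw [← Finset.sum_filter]
    refine Finset.sum_congr ?_ fun _ _ => rfl
    ext f
    simp
  simp_rw [h1, Finset.mul_sum]
  rw [Finset.sum_comm]
  -- the inner sum over the sets
  have h2 : ∀ f : Fin a → Fin a,
      ∑ S : Finset (Fin a), (-1 : R) ^ Sᶜ.card * (if ∀ i, f i ∈ S then ∏ i, A i (f i) else 0) =
        if Function.Surjective f then ∏ i, A i (f i) else 0 := by
    intro f
    set I : Finset (Fin a) := univ.image f with hI
    have h3 : ∑ S : Finset (Fin a), (-1 : R) ^ Sᶜ.card *
          (if ∀ i, f i ∈ S then ∏ i, A i (f i) else 0) =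
        ∑ T : Finset (Fin a), (-1 : R) ^ T.card *
          (if ∀ i, f i ∈ Tᶜ then ∏ i, A i (f i) else 0) := by
      refine Fintype.sum_equiv (Equiv.ofBijective (fun S : Finset (Fin a) => Sᶜ)
        compl_involutive.bijective) _ _ fun S => ?_
      simp
    rw [h3]
    have h4 : ∀ T : Finset (Fin a), (∀ i, f i ∈ Tᶜ) ↔ T ∈ (Iᶜ).powerset := by
      intro T
      rw [Finset.mem_powerset]
      constructor
      · intro h x hx
        rw [Finset.mem_compl]
        intro hxI
        obtain ⟨i, _, rfl⟩ := Finset.mem_image.1 hxI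
        exact (Finset.mem_compl.1 (h i)) hx
      · intro h i
        rw [Finset.mem_compl]
        intro hi
        exact (Finset.mem_compl.1 (h hi)) (Finset.mem_image_of_mem f (Finset.mem_univ i))
    simp_rw [h4]
    have h5 : ∀ T : Finset (Fin a), (-1 : R) ^ T.card *
        (if T ∈ (Iᶜ).powerset then ∏ i, A i (f i) else 0) =
        if T ∈ (Iᶜ).powerset then (-1 : R) ^ T.card * ∏ i, A i (f i) else 0 := by
      intro T
      split_ifs <;> simp
    simp_rw [h5]
    rw [Finset.sum_ite_mem, Finset.univ_inter, ← Finset.sum_mul]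
    have h6 : ∑ T ∈ (Iᶜ).powerset, (-1 : R) ^ T.card = if Iᶜ = ∅ then 1 else 0 := by
      have := congrArg (Int.cast : ℤ → R) (Finset.sum_powerset_neg_one_pow_card (x := Iᶜ))
      push_cast at this
      rw [this]
    rw [h6]
    have h7 : Iᶜ = ∅ ↔ Function.Surjective f := by
      rw [Finset.compl_eq_empty_iff]
      constructor
      · intro h x
        have : x ∈ I := by rw [h]; exact Finset.mem_univ x
        obtain ⟨i, _, rfl⟩ := Finset.mem_image.1 this
        exact ⟨i, rfl⟩
      · intro h
        ext x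
        obtain ⟨i, rfl⟩ := h x
        simp [hI]
    by_cases hs : Function.Surjective f
    · rw [if_pos (h7.2 hs), if_pos hs, one_mul]
    · rw [if_neg (fun h => hs (h7.1 h)), if_neg hs, zero_mul]
  simp_rw [h2]
  rw [← Finset.sum_filter]
  refine Finset.sum_bij (fun τ _ => ⇑τ) ?_ ?_ ?_ ?_
  · intro τ _
    simp [τ.surjective]
  · intro τ _ τ' _ h
    exact Equiv.coe_fn_injective h
  · intro f hf
    have hs : Function.Surjective f := (Finset.mem_filter.1 hf).2
    have hi : Function.Injective f := Finite.injective_iff_surjective.2 hs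
    exact ⟨Equiv.ofBijective f ⟨hi, hs⟩, Finset.mem_univ _, rfl⟩
  · intro τ _
    rfl

/-- Coefficients of a vector polynomial taking values in a subspace at enough points. -/
theorem coeff_mem {M : Type*} [AddCommGroup M] [Module ℂ M] (W : Submodule ℂ M) (A : ℕ → M)
    (D : ℕ) (Y : Fin D → ℂ) (hY : Function.Injective Y)
    (h : ∀ t, ∑ i ∈ Finset.range D, (Y t) ^ i • A i ∈ W) : ∀ i, i < D → A i ∈ W := by
  intro i hi
  by_contra hnot
  obtain ⟨φ, hφ, hle⟩ := Submodule.exists_le_ker_of_notMem hnot
  set F : Polynomial ℂ := ∑ j ∈ Finset.range D, Polynomial.C (φ (A j)) * Polynomial.X ^ j with hF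
  have hcoeff : ∀ N, F.coeff N = if N < D then φ (A N) else 0 := by
    intro N
    rw [hF, Polynomial.finsetSum_coeff]
    simp only [Polynomial.coeff_C_mul, Polynomial.coeff_X_pow, mul_ite, mul_one, mul_zero]
    rw [Finset.sum_ite_eq]
    simp
  have hF0 : F = 0 := by
    apply Polynomial.eq_zero_of_natDegree_lt_card_of_eval_eq_zero F hY
    · intro t
      have h1 := hle (h t)
      rw [LinearMap.mem_ker, map_sum] at h1
      rw [← h1, hF, Polynomial.eval_finsetSum]
      refine Finset.sum_congr rfl fun j _ => ?_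
      rw [Polynomial.eval_mul, Polynomial.eval_C, Polynomial.eval_pow, Polynomial.eval_X, map_smul,
        smul_eq_mul, mul_comm]
    · rw [Fintype.card_fin]
      have : F.natDegree ≤ D - 1 := by
        rw [Polynomial.natDegree_le_iff_coeff_eq_zero]
        intro N hN
        rw [hcoeff, if_neg (by omega)]
      omega
  have := hcoeff i
  rw [hF0, Polynomial.coeff_zero, if_pos hi] at this
  exact hφ this.symm

section newton

open MvPolynomial

variable {K : Type*} [CommRing K] [Algebra ℂ K] {a : ℕ}

/-- Power sums from elementary symmetric functions in a graded family of subspaces. -/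
theorem newton_ep (A : ℕ → Submodule ℂ K) (hmul : ∀ r s, A r * A s ≤ A (r + s)) (c : ℕ)
    (x : Fin a → K) (he : ∀ i, aeval x (esymm (Fin a) ℂ i) ∈ A (c * i)) :
    ∀ r, 0 < r → aeval x (psum (Fin a) ℂ r) ∈ A (c * r) := by
  intro r
  induction r using Nat.strong_induction_on with
  | _ r ih =>
    intro h0
    rw [psum_eq_mul_esymm_sub_sum (Fin a) ℂ r h0, map_sub]
    refine Submodule.sub_mem _ ?_ ?_
    · rw [map_mul, map_mul, map_pow, map_neg, map_one, map_natCast, mul_assoc]
      have h1 : (r : K) * aeval x (esymm (Fin a) ℂ r) ∈ A (c * r) := by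
        rw [← nsmul_eq_mul]
        exact Submodule.smul_of_tower_mem _ _ (he r)
      rcases neg_one_pow_eq_or K (r + 1) with h | h
      · rw [h, one_mul]; exact h1
      · rw [h, neg_one_mul]; exact Submodule.neg_mem _ h1
    · rw [map_sum]
      refine Submodule.sum_mem _ fun p hp => ?_
      obtain ⟨hp1, hp2⟩ := Finset.mem_filter.1 hp
      have hsum : p.1 + p.2 = r := Finset.HasAntidiagonal.mem_antidiagonal.1 hp1
      have h3 : 0 < p.1 := hp2.1
      have h4 : p.1 < r := hp2.2
      rw [map_mul, map_mul, map_pow, map_neg, map_one, mul_assoc]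
      have h1 : aeval x (esymm (Fin a) ℂ p.1) * aeval x (psum (Fin a) ℂ p.2) ∈ A (c * r) := by
        have h5 := hmul _ _ (Submodule.mul_mem_mul (he p.1) (ih p.2 (by omega) (by omega)))
        rwa [← mul_add, hsum] at h5
      rcases neg_one_pow_eq_or K p.1 with h | h
      · rw [h, one_mul]; exact h1
      · rw [h, neg_one_mul]; exact Submodule.neg_mem _ h1

/-- Elementary symmetric functions from power sums in a graded family of subspaces. -/
theorem newton_pe (A : ℕ → Submodule ℂ K) (hmul : ∀ r s, A r * A s ≤ A (r + s))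
    (h1 : (1 : K) ∈ A 0) (c : ℕ) (x : Fin a → K)
    (hp : ∀ r, 0 < r → aeval x (psum (Fin a) ℂ r) ∈ A (c * r)) :
    ∀ j, aeval x (esymm (Fin a) ℂ j) ∈ A (c * j) := by
  intro j
  induction j using Nat.strong_induction_on with
  | _ j ih =>
    rcases Nat.eq_zero_or_pos j with rfl | hj
    · simpa using h1
    have hj' : ((j : ℕ) : ℂ) ≠ 0 := Nat.cast_ne_zero.2 hj.ne'
    have key := congrArg (aeval x) (mul_esymm_eq_sum (Fin a) ℂ j)
    rw [map_mul, map_natCast] at key
    have h2 : aeval x (esymm (Fin a) ℂ j) =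
        ((j : ℂ)⁻¹) • ((j : K) * aeval x (esymm (Fin a) ℂ j)) := by
      rw [← nsmul_eq_mul, ← Nat.cast_smul_eq_nsmul ℂ, smul_smul, inv_mul_cancel₀ hj', one_smul]
    rw [h2, key]
    refine Submodule.smul_mem _ _ ?_
    rw [map_mul, map_pow, map_neg, map_one, map_sum]
    have h3 : ∑ p ∈ Finset.HasAntidiagonal.antidiagonal j with p.1 < j,
        aeval x ((-1) ^ p.1 * esymm (Fin a) ℂ p.1 * psum (Fin a) ℂ p.2) ∈ A (c * j) := by
      refine Submodule.sum_mem _ fun p hq => ?_
      obtain ⟨hp1, hp2⟩ := Finset.mem_filter.1 hq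
      have hsum : p.1 + p.2 = j := Finset.HasAntidiagonal.mem_antidiagonal.1 hp1
      rw [map_mul, map_mul, map_pow, map_neg, map_one, mul_assoc]
      have h4 : aeval x (esymm (Fin a) ℂ p.1) * aeval x (psum (Fin a) ℂ p.2) ∈ A (c * j) := by
        have h5 := hmul _ _ (Submodule.mul_mem_mul (ih p.1 hp2) (hp p.2 (by omega)))
        rwa [← mul_add, hsum] at h5
      rcases neg_one_pow_eq_or K p.1 with h | h
      · rw [h, one_mul]; exact h4
      · rw [h, neg_one_mul]; exact Submodule.neg_mem _ h4
    rcases neg_one_pow_eq_or K (j + 1) with h | h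
    · rw [h, one_mul]; exact h3
    · rw [h, neg_one_mul]; exact Submodule.neg_mem _ h3

end newton

end Vale.Agent.Lib.P181
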