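import Mathlib
import Vale.Agent.Lib.P181.Gen
import Vale.Agent.Lib.P181.Tools

open MvPolynomial Finset

namespace Vale.Agent.Lib.P181

variable {a n : ℕ}

/-- The coefficient of `ε^i` in `qf (y + ε v)`. -/
noncomputable def mixE (y v : Fin n → ℂ) (i : ℕ) : TT a n :=
  ∑ S ∈ powersetCard i (univ : Finset (Fin a)), (∏ s ∈ S, lin v s) * ∏ s ∈ Sᶜ, lin y s

lemma lin_add_smul (y v : Fin n → ℂ) (ε : ℂ) (s : Fin a) :
    (lin (fun l => y l + ε * v l) s : TT a n) = ε • lin v s + lin y s := by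
  unfold lin
  rw [Finset.smul_sum, ← Finset.sum_add_distrib]
  refine Finset.sum_congr rfl fun l _ => ?_
  rw [map_add, map_mul, add_mul, add_comm, smul_eq_C_mul, mul_assoc]

lemma qf_add (y v : Fin n → ℂ) (ε : ℂ) :
    (qf (fun l => y l + ε * v l) : TT a n) = ∑ i ∈ Finset.range (a + 1), ε ^ i • mixE y v i := by
  classical
  unfold qf mixE
  simp_rw [lin_add_smul]
  rw [Fintype.prod_add]
  have h := Finset.sum_powerset (univ : Finset (Fin a))
    (fun t => (∏ s ∈ t, ε • (lin v s : TT a n)) * ∏ s ∈ tᶜ, lin y s)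
  rw [Finset.powerset_univ, Finset.card_univ, Fintype.card_fin] at h
  rw [h]
  refine Finset.sum_congr rfl fun i _ => ?_
  rw [Finset.smul_sum]
  refine Finset.sum_congr rfl fun S hS => ?_
  rw [Finset.prod_smul, Finset.prod_const, (Finset.mem_powersetCard.1 hS).2, smul_mul_assoc]

lemma mixE_mem (y v : Fin n → ℂ) (i : ℕ) : (mixE y v i : TT a n) ∈ G1 a n := by
  by_cases hi : i < a + 1
  · refine coeff_mem (G1 a n) (fun i => (mixE y v i : TT a n)) (a + 1) (fun t => ((t : ℕ) : ℂ))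
      (fun t t' h => Fin.ext (Nat.cast_injective h)) (fun t => ?_) i hi
    rw [← qf_add]
    exact qf_mem_G1 _
  · have : (mixE y v i : TT a n) = 0 := by
      unfold mixE
      rw [Finset.powersetCard_eq_empty.2 (by simp; omega)]
      simp
    rw [this]
    exact zero_mem _

/-- The variables of the row `s`. -/
noncomputable def rowEmb (s : Fin a) : MvPolynomial (Fin n) ℂ →ₐ[ℂ] TT a n :=
  rename (Prod.mk s)

/-- The general linear form in `n` variables. -/
noncomputable def lnf (v : Fin n → ℂ) : MvPolynomial (Fin n) ℂ := ∑ l, C (v l) * X l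

lemma rowEmb_lnf (s : Fin a) (v : Fin n → ℂ) : rowEmb s (lnf v) = lin v s := by
  unfold lnf lin rowEmb
  rw [map_sum]
  refine Finset.sum_congr rfl fun l _ => ?_
  rw [map_mul, rename_C, rename_X]

/-- The span of the variables. -/
noncomputable def V1 (n : ℕ) : Submodule ℂ (MvPolynomial (Fin n) ℂ) :=
  Submodule.span ℂ (Set.range X)

lemma pow_span_le {R ι : Type*} [CommRing R] [Algebra ℂ R] (e : ι → R) (r : ℕ) :
    (Submodule.span ℂ (Set.range e)) ^ r ≤
      Submodule.span ℂ (Set.range fun f : Fin r → ι => ∏ i, e (f i)) := by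
  induction r with
  | zero =>
    rw [pow_zero, Submodule.one_eq_span, Submodule.span_le]
    rintro _ rfl
    exact Submodule.subset_span ⟨fun i => i.elim0, Finset.prod_of_isEmpty _⟩
  | succ r ih =>
    rw [pow_succ']
    refine (mul_le_mul_right ih _).trans ?_
    rw [Submodule.span_mul_span, Submodule.span_le]
    rintro _ ⟨x, ⟨l, rfl⟩, y, ⟨f, rfl⟩, rfl⟩
    refine Submodule.subset_span ⟨Fin.cons l f, ?_⟩
    simp [Fin.prod_univ_succ]

lemma lnf_sum {ι : Type*} (S : Finset ι) (w : ι → Fin n → ℂ) :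
    lnf (∑ j ∈ S, w j) = ∑ j ∈ S, lnf (w j) := by
  unfold lnf
  rw [Finset.sum_comm]
  refine Finset.sum_congr rfl fun l _ => ?_
  rw [Finset.sum_apply, map_sum, Finset.sum_mul]

lemma V1_pow_le (r : ℕ) : V1 n ^ r ≤ Submodule.span ℂ (Set.range fun v : Fin n → ℂ => (lnf v) ^ r) := by
  classical
  refine (pow_span_le X r).trans ?_
  rw [Submodule.span_le]
  rintro _ ⟨f, rfl⟩
  simp only [SetLike.mem_coe]
  -- Ryser's formula for the matrix with rows `X ∘ f`
  have hL : ∀ j, (X (f j) : MvPolynomial (Fin n) ℂ) = lnf (Pi.single (f j) 1) := by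
    intro j
    unfold lnf
    rw [Finset.sum_eq_single (f j)]
    · simp
    · intro l _ hl
      simp [hl]
    · simp
  have h := ryser (fun (_ : Fin r) (j : Fin r) => (X (f j) : MvPolynomial (Fin n) ℂ))
  have h1 : ∀ τ : Equiv.Perm (Fin r), ∏ i, (X (f (τ i)) : MvPolynomial (Fin n) ℂ) = ∏ i, X (f i) :=
    fun τ => Equiv.prod_comp τ (fun i => (X (f i) : MvPolynomial (Fin n) ℂ))
  simp_rw [h1] at h
  rw [Finset.sum_const, Finset.card_univ, Fintype.card_perm, Fintype.card_fin] at h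
  have hne : ((r.factorial : ℕ) : ℂ) ≠ 0 := by exact_mod_cast r.factorial_ne_zero
  have h2 : ∏ i, (X (f i) : MvPolynomial (Fin n) ℂ) =
      ((r.factorial : ℂ)⁻¹) • (r.factorial • ∏ i, (X (f i) : MvPolynomial (Fin n) ℂ)) := by
    rw [← Nat.cast_smul_eq_nsmul ℂ, smul_smul, inv_mul_cancel₀ hne, one_smul]
  rw [h2, h]
  refine Submodule.smul_mem _ _ (Submodule.sum_mem _ fun S _ => ?_)
  have h3 : ∏ _i : Fin r, ∑ j ∈ S, (X (f j) : MvPolynomial (Fin n) ℂ) =
      (lnf (∑ j ∈ S, Pi.single (f j) 1)) ^ r := by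
    rw [Finset.prod_const, Finset.card_univ, Fintype.card_fin]
    congr 1
    rw [lnf_sum]
    exact Finset.sum_congr rfl fun j _ => hL j
  rw [h3]
  rcases neg_one_pow_eq_or (MvPolynomial (Fin n) ℂ) Sᶜ.card with h4 | h4
  · rw [h4, one_mul]; exact Submodule.subset_span ⟨_, rfl⟩
  · rw [h4, neg_one_mul]; exact Submodule.neg_mem _ (Submodule.subset_span ⟨_, rfl⟩)

end Vale.Agent.Lib.P181
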