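import Mathlib
import Vale.Agent.Lib.P181.Cond

open MvPolynomial Finset

namespace Vale.Agent.Lib.P181

section

variable {a n : ℕ}
variable {K : Type*} [Field K] [Algebra (TT a n) K] [Algebra ℂ K] [IsScalarTower ℂ (TT a n) K]

/-- The map to the field. -/
noncomputable abbrev iA (a n : ℕ) (K : Type*) [Field K] [Algebra (TT a n) K] [Algebra ℂ K]
    [IsScalarTower ℂ (TT a n) K] : TT a n →ₐ[ℂ] K :=
  IsScalarTower.toAlgHom ℂ (TT a n) K

/-- The elements `z` of the field with `q ^ r * z` in the image of `G1 ^ r`. -/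
noncomputable def goodS (K : Type*) [Field K] [Algebra (TT a n) K] [Algebra ℂ K]
    [IsScalarTower ℂ (TT a n) K] (q : TT a n) (r : ℕ) : Submodule ℂ K :=
  ((G1 a n ^ r).map (iA a n K).toLinearMap).comap (LinearMap.mulLeft ℂ (iA a n K q ^ r))

lemma mem_goodS (q : TT a n) (r : ℕ) (z : K) :
    z ∈ goodS K q r ↔ ∃ g ∈ G1 a n ^ r, iA a n K g = iA a n K q ^ r * z := by
  unfold goodS
  rw [Submodule.mem_comap, Submodule.mem_map]
  rfl

lemma good_mul (q : TT a n) (r s : ℕ) : goodS K q r * goodS K q s ≤ goodS K q (r + s) := by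
  rw [Submodule.mul_le]
  intro x hx y hy
  rw [mem_goodS] at hx hy ⊢
  obtain ⟨g, hg, hgx⟩ := hx
  obtain ⟨g', hg', hgy⟩ := hy
  refine ⟨g * g', ?_, ?_⟩
  · rw [pow_add]
    exact Submodule.mul_mem_mul hg hg'
  · rw [map_mul, hgx, hgy, pow_add]
    ring

lemma one_good (q : TT a n) : (1 : K) ∈ goodS K q 0 := by
  rw [mem_goodS]
  refine ⟨1, ?_, by simp⟩
  rw [pow_zero]
  exact Submodule.one_le.1 le_rfl

/-- The quotient of the linear forms `v` and `y` on the row `s`. -/
noncomputable def bK (K : Type*) [Field K] [Algebra (TT a n) K] [Algebra ℂ K]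
    [IsScalarTower ℂ (TT a n) K] (y v : Fin n → ℂ) (s : Fin a) : K :=
  iA a n K (lin v s) / iA a n K (lin y s)

variable (hinj : Function.Injective (algebraMap (TT a n) K))
variable (y : Fin n → ℂ) (hy : ∀ s : Fin a, (lin y s : TT a n) ≠ 0)

include hinj hy in
lemma ell_ne (s : Fin a) : iA a n K (lin y s) ≠ 0 := by
  intro h
  apply hy s
  apply hinj
  rw [map_zero]
  exact h

include hinj hy in
lemma esymm_b (v : Fin n → ℂ) (i : ℕ) :
    iA a n K (qf y : TT a n) * aeval (bK (a := a) K y v) (esymm (Fin a) ℂ i) = iA a n K (mixE y v i) := by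
  classical
  unfold esymm mixE
  rw [map_sum, map_sum, Finset.mul_sum]
  refine Finset.sum_congr rfl fun S _ => ?_
  rw [map_prod, map_mul, map_prod, map_prod]
  simp only [aeval_X]
  unfold qf bK
  rw [map_prod, ← Finset.prod_mul_prod_compl S, Finset.prod_div_distrib]
  have hne : ∏ s ∈ S, iA a n K (lin y s) ≠ 0 :=
    Finset.prod_ne_zero_iff.2 fun s _ => ell_ne hinj y hy s
  field_simp

include hinj hy in
lemma esymm_good (v : Fin n → ℂ) (i : ℕ) :
    aeval (bK (a := a) K y v) (esymm (Fin a) ℂ i) ∈ goodS K (qf y : TT a n) (1 * i) := by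
  rw [one_mul, mem_goodS]
  cases i with
  | zero =>
    refine ⟨1, ?_, by simp⟩
    rw [pow_zero]
    exact Submodule.one_le.1 le_rfl
  | succ i =>
    refine ⟨qf y ^ i * mixE y v (i + 1), ?_, ?_⟩
    · rw [pow_succ]
      exact Submodule.mul_mem_mul (Submodule.pow_mem_pow _ (qf_mem_G1 y) _) (mixE_mem y v _)
    · rw [map_mul, map_pow, ← esymm_b hinj y hy, pow_succ]
      ring

include hinj hy in
lemma psum_good (v : Fin n → ℂ) (r : ℕ) (h0 : 0 < r) :
    aeval (bK (a := a) K y v) (psum (Fin a) ℂ r) ∈ goodS K (qf y : TT a n) (1 * r) :=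
  newton_ep (fun r => goodS K (qf y : TT a n) r) (good_mul (qf y : TT a n)) 1 (bK (a := a) K y v)
    (esymm_good hinj y hy v) r h0

/-- The value of a form on all rows, normalized by `y`, summed. -/
noncomputable def pwL (K : Type*) [Field K] [Algebra (TT a n) K] [Algebra ℂ K]
    [IsScalarTower ℂ (TT a n) K] (y : Fin n → ℂ) (r : ℕ) (ζ : MvPolynomial (Fin n) ℂ) : K :=
  ∑ s : Fin a, iA a n K (rowEmb s ζ) / iA a n K (lin y s) ^ r

include hinj hy in
lemma pwL_mem (r : ℕ) (ζ : MvPolynomial (Fin n) ℂ) (hζ : ζ ∈ V1 n ^ r) :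
    pwL (a := a) K y r ζ ∈ goodS K (qf y : TT a n) r := by
  have hspan := V1_pow_le r hζ
  clear hζ
  induction hspan using Submodule.span_induction with
  | mem x hx =>
    obtain ⟨v, rfl⟩ := hx
    cases r with
    | zero =>
      have : pwL (a := a) K y 0 ((lnf v) ^ 0) = ((a : ℕ) : ℂ) • (1 : K) := by
        unfold pwL
        simp only [pow_zero, map_one, div_one, Finset.sum_const, Finset.card_univ, Fintype.card_fin]
        rw [Nat.cast_smul_eq_nsmul]
      rw [this]
      exact Submodule.smul_mem _ _ (one_good _)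
    | succ r =>
      have h1 := psum_good (K := K) hinj y hy v (r + 1) (by omega)
      rw [one_mul] at h1
      have : pwL (a := a) K y (r + 1) ((lnf v) ^ (r + 1)) =
          aeval (bK (a := a) K y v) (psum (Fin a) ℂ (r + 1)) := by
        unfold pwL psum
        rw [map_sum]
        refine Finset.sum_congr rfl fun s _ => ?_
        rw [map_pow, map_pow, rowEmb_lnf, map_pow, aeval_X]
        unfold bK
        rw [div_pow]
      rw [this]
      exact h1
  | zero =>
    have : pwL (a := a) K y r 0 = 0 := by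
      unfold pwL
      simp
    rw [this]
    exact zero_mem _
  | add x w _ _ h1 h2 =>
    have : pwL (a := a) K y r (x + w) = pwL (a := a) K y r x + pwL (a := a) K y r w := by
      unfold pwL
      rw [← Finset.sum_add_distrib]
      refine Finset.sum_congr rfl fun s _ => ?_
      rw [map_add, map_add, add_div]
    rw [this]
    exact add_mem h1 h2
  | smul c x _ h1 =>
    have : pwL (a := a) K y r (c • x) = c • pwL (a := a) K y r x := by
      unfold pwL
      rw [Finset.smul_sum]
      refine Finset.sum_congr rfl fun s _ => ?_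
      rw [map_smul, map_smul, smul_div_assoc]
    rw [this]
    exact Submodule.smul_mem _ _ h1

/-- The normalized value of a form on the row `s`. -/
noncomputable def aK (K : Type*) [Field K] [Algebra (TT a n) K] [Algebra ℂ K]
    [IsScalarTower ℂ (TT a n) K] (y : Fin n → ℂ) (c : ℕ) (η : MvPolynomial (Fin n) ℂ) (s : Fin a) :
    K :=
  iA a n K (rowEmb s η) / iA a n K (lin y s) ^ c

include hinj hy in
lemma psum_aK_good (c : ℕ) (η : MvPolynomial (Fin n) ℂ) (hη : η ∈ V1 n ^ c) (r : ℕ) :
    aeval (aK (a := a) K y c η) (psum (Fin a) ℂ r) ∈ goodS K (qf y : TT a n) (c * r) := by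
  have h1 := pwL_mem (K := K) hinj y hy (c * r) (η ^ r) (by
    rw [pow_mul]
    exact Submodule.pow_mem_pow _ hη _)
  have : aeval (aK (a := a) K y c η) (psum (Fin a) ℂ r) = pwL (a := a) K y (c * r) (η ^ r) := by
    unfold pwL psum aK
    rw [map_sum]
    refine Finset.sum_congr rfl fun s _ => ?_
    rw [map_pow, aeval_X, div_pow, map_pow, map_pow, pow_mul]
  rw [this]
  exact h1

include hinj hy in
lemma esymm_aK_good (c : ℕ) (η : MvPolynomial (Fin n) ℂ) (hη : η ∈ V1 n ^ c) :
    ∏ s, aK (a := a) K y c η s ∈ goodS K (qf y : TT a n) (c * a) := by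
  have h1 := newton_pe (fun r => goodS K (qf y : TT a n) r) (good_mul (qf y : TT a n))
    (one_good _) c (aK (a := a) K y c η)
    (fun r _ => psum_aK_good hinj y hy c η hη r) a
  have h2 : aeval (aK (a := a) K y c η) (esymm (Fin a) ℂ a) = ∏ s, aK (a := a) K y c η s := by
    unfold esymm
    have : powersetCard a (univ : Finset (Fin a)) = {univ} := by
      have := Finset.powersetCard_self (univ : Finset (Fin a))
      rwa [Finset.card_univ, Fintype.card_fin] at this
    rw [this, Finset.sum_singleton, map_prod]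
    simp
  rw [h2] at h1
  exact h1

include hinj hy in
/-- The conductor statement for the value of one form on all the rows. -/
theorem cond_form_aux (ha : 0 < a) (c : ℕ) (η : MvPolynomial (Fin n) ℂ) (hη : η ∈ V1 n ^ c) :
    (qf y : TT a n) ^ ((a - 1) * c) * ∏ s, rowEmb s η ∈ G1 a n ^ (c * a) := by
  have h1 := esymm_aK_good (K := K) hinj y hy c η hη
  rw [mem_goodS] at h1
  obtain ⟨g, hg, hgeq⟩ := h1
  have h2 : g = (qf y : TT a n) ^ ((a - 1) * c) * ∏ s, rowEmb s η := by
    apply hinj
    change iA a n K g = iA a n K _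
    rw [hgeq, map_mul, map_pow, map_prod]
    have e1 : c * a = (a - 1) * c + c := by
      obtain ⟨a', rfl⟩ : ∃ a', a = a' + 1 := ⟨a - 1, by omega⟩
      simp only [Nat.add_sub_cancel]
      ring
    rw [e1, pow_add, mul_assoc]
    congr 1
    have hq : iA a n K (qf y : TT a n) = ∏ s, iA a n K (lin y s) := by
      unfold qf
      rw [map_prod]
    unfold aK
    rw [Finset.prod_div_distrib, hq, Finset.prod_pow]
    have hne : ∏ s, iA a n K (lin y s) ≠ 0 :=
      Finset.prod_ne_zero_iff.2 fun s _ => ell_ne hinj y hy s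
    field_simp
  rw [← h2]
  exact hg

end

/-- The conductor statement for the value of one form on all the rows. -/
theorem cond_form {a n : ℕ} (y : Fin n → ℂ) (hy : ∀ s : Fin a, (lin y s : TT a n) ≠ 0) (ha : 0 < a)
    (c : ℕ) (η : MvPolynomial (Fin n) ℂ) (hη : η ∈ V1 n ^ c) :
    (qf y : TT a n) ^ ((a - 1) * c) * ∏ s, rowEmb s η ∈ G1 a n ^ (c * a) :=
  cond_form_aux (K := FractionRing (TT a n)) (IsFractionRing.injective _ _) y hy ha c η hη

end Vale.Agent.Lib.P181
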