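import Mathlib
import Vale.Agent.Lib.P181.Cond2

open MvPolynomial Finset

namespace Vale.Agent.Lib.P181

variable {a n : ℕ}

/-- Permuting the rows. -/
noncomputable def permRow (τ : Equiv.Perm (Fin a)) : TT a n →ₐ[ℂ] TT a n :=
  rename (fun p => (τ p.1, p.2))

/-- The sum over all permutations of the rows. -/
noncomputable def Rey : TT a n →ₗ[ℂ] TT a n :=
  ∑ τ : Equiv.Perm (Fin a), (permRow τ).toLinearMap

lemma Rey_apply (g : TT a n) : Rey g = ∑ τ : Equiv.Perm (Fin a), permRow τ g := by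
  unfold Rey
  rw [LinearMap.sum_apply]
  rfl

lemma permRow_lin (τ : Equiv.Perm (Fin a)) (w : Fin n → ℂ) (i : Fin a) :
    permRow τ (lin w i) = lin w (τ i) := by
  unfold lin permRow
  rw [map_sum]
  refine Finset.sum_congr rfl fun l _ => ?_
  rw [map_mul, rename_C, rename_X]

lemma permRow_qf (τ : Equiv.Perm (Fin a)) (w : Fin n → ℂ) :
    permRow τ (qf w) = qf w := by
  unfold qf
  rw [map_prod]
  simp_rw [permRow_lin]
  exact Equiv.prod_comp τ (fun i => lin w i)

lemma permRow_rowEmb (τ : Equiv.Perm (Fin a)) (i : Fin a) (ζ : MvPolynomial (Fin n) ℂ) :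
    permRow τ (rowEmb i ζ) = rowEmb (τ i) ζ := by
  unfold permRow rowEmb
  change rename _ (rename _ ζ) = rename _ ζ
  rw [rename_rename]
  rfl

lemma Rey_mul (h g : TT a n) (hh : ∀ τ, permRow τ h = h) : Rey (h * g) = h * Rey g := by
  rw [Rey_apply, Rey_apply, Finset.mul_sum]
  refine Finset.sum_congr rfl fun τ _ => ?_
  rw [map_mul, hh]

lemma Rey_prod (η : Fin a → MvPolynomial (Fin n) ℂ) :
    Rey (∏ i, rowEmb i (η i)) =
      ∑ S : Finset (Fin a), (-1 : TT a n) ^ Sᶜ.card * ∏ j, rowEmb j (∑ i ∈ S, η i) := by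
  rw [Rey_apply]
  have h1 : ∀ τ : Equiv.Perm (Fin a), permRow τ (∏ i, rowEmb i (η i)) =
      ∏ j, rowEmb j (η (τ⁻¹ j)) := by
    intro τ
    rw [map_prod]
    simp_rw [permRow_rowEmb]
    rw [← Equiv.prod_comp τ (fun j => rowEmb j (η (τ⁻¹ j)))]
    simp
  simp_rw [h1]
  have h2 : ∑ τ : Equiv.Perm (Fin a), ∏ j, rowEmb j (η (τ⁻¹ j)) =
      ∑ τ : Equiv.Perm (Fin a), ∏ j, (rowEmb j (η (τ j)) : TT a n) :=
    Fintype.sum_equiv (Equiv.inv _) _ _ fun τ => rfl
  rw [h2, ryser (fun j i => (rowEmb j (η i) : TT a n))]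
  refine Finset.sum_congr rfl fun S _ => ?_
  congr 1
  refine Finset.prod_congr rfl fun j _ => ?_
  rw [map_sum]

/-- The conductor statement for symmetrized products. -/
theorem cond_rey (y : Fin n → ℂ) (hy : ∀ s : Fin a, (lin y s : TT a n) ≠ 0) (ha : 0 < a) (c : ℕ)
    (η : Fin a → MvPolynomial (Fin n) ℂ) (hη : ∀ i, η i ∈ V1 n ^ c) :
    (qf y : TT a n) ^ ((a - 1) * c) * Rey (∏ i, rowEmb i (η i)) ∈ G1 a n ^ (c * a) := by
  rw [Rey_prod, Finset.mul_sum]
  refine Submodule.sum_mem _ fun S _ => ?_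
  have h1 := cond_form y hy ha c (∑ i ∈ S, η i) (Submodule.sum_mem _ fun i _ => hη i)
  rw [mul_left_comm]
  rcases neg_one_pow_eq_or (TT a n) Sᶜ.card with h4 | h4
  · rw [h4, one_mul]; exact h1
  · rw [h4, neg_one_mul]; exact Submodule.neg_mem _ h1

lemma rowSp_eq (i : Fin a) : (rowSp i : Submodule ℂ (TT a n)) = (V1 n).map (rowEmb i).toLinearMap := by
  unfold rowSp V1
  rw [Submodule.map_span, ← Set.range_comp]
  congr 2
  funext l
  simp [rowEmb, rename_X]

lemma prod_sub_le {R ι : Type*} [CommRing R] [Algebra ℂ R] [DecidableEq ι] (M : ι → Submodule ℂ R)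
    (S : Finset ι) :
    ∏ i ∈ S, M i ≤ Submodule.span ℂ {z | ∃ x : ι → R, (∀ i, x i ∈ M i) ∧ z = ∏ i ∈ S, x i} := by
  induction S using Finset.induction_on with
  | empty =>
    rw [Finset.prod_empty, Submodule.one_eq_span, Submodule.span_le]
    rintro _ rfl
    refine Submodule.subset_span ⟨fun _ => 0, fun i => zero_mem _, by simp⟩
  | insert i₀ S hi ih =>
    rw [Finset.prod_insert hi]
    refine (mul_le_mul_right ih _).trans ?_
    rw [Submodule.mul_le]
    intro u hu v hv
    induction hv using Submodule.span_induction with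
    | mem z hz =>
      obtain ⟨x, hx, rfl⟩ := hz
      refine Submodule.subset_span ⟨Function.update x i₀ u, ?_, ?_⟩
      · intro i
        by_cases h : i = i₀
        · subst h; simpa using hu
        · simpa [Function.update_of_ne h] using hx i
      · rw [Finset.prod_insert hi, Function.update_self]
        congr 1
        refine Finset.prod_congr rfl fun i hiS => ?_
        have : i ≠ i₀ := fun h => hi (h ▸ hiS)
        rw [Function.update_of_ne this]
    | zero => rw [mul_zero]; exact zero_mem _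
    | add v w _ _ hv hw => rw [mul_add]; exact add_mem hv hw
    | smul c v _ hv => rw [mul_smul_comm]; exact Submodule.smul_mem _ _ hv

lemma TS_le (c : ℕ) :
    (TS Finset.univ c : Submodule ℂ (TT a n)) ≤ Submodule.span ℂ
      {z | ∃ η : Fin a → MvPolynomial (Fin n) ℂ, (∀ i, η i ∈ V1 n ^ c) ∧
        z = ∏ i, rowEmb i (η i)} := by
  classical
  unfold TS
  refine (prod_sub_le _ _).trans ?_
  rw [Submodule.span_le]
  rintro _ ⟨x, hx, rfl⟩
  have h : ∀ i, ∃ η, η ∈ V1 n ^ c ∧ rowEmb i η = x i := by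
    intro i
    have := hx i
    rw [rowSp_eq, ← Submodule.map_pow, Submodule.mem_map] at this
    obtain ⟨η, hη, h2⟩ := this
    exact ⟨η, hη, h2⟩
  choose η hη hη2 using h
  refine Submodule.subset_span ⟨η, hη, ?_⟩
  simp_rw [hη2]

theorem cond_TS (y : Fin n → ℂ) (hy : ∀ s : Fin a, (lin y s : TT a n) ≠ 0) (ha : 0 < a) (c : ℕ)
    (g : TT a n) (hg : g ∈ TS Finset.univ c) :
    (qf y : TT a n) ^ ((a - 1) * c) * Rey g ∈ G1 a n ^ (c * a) := by
  have h := TS_le c hg
  clear hg
  induction h using Submodule.span_induction with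
  | mem z hz =>
    obtain ⟨η, hη, rfl⟩ := hz
    exact cond_rey y hy ha c η hη
  | zero => simp
  | add u v _ _ hu hv =>
    rw [map_add, mul_add]
    exact add_mem hu hv
  | smul k u _ hu =>
    rw [map_smul, mul_smul_comm]
    exact Submodule.smul_mem _ _ hu

end Vale.Agent.Lib.P181
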