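import Mathlib
import Vale.Agent.Lib.P181.Rey

open MvPolynomial Finset

namespace Vale.Agent.Lib.P181

variable {a n : ℕ}

/-- Points on the rational normal curve. -/
noncomputable def Yp (n D : ℕ) (t : Fin D) : Fin n → ℂ := fun l => ((t : ℕ) : ℂ) ^ (l : ℕ)

lemma lin_Yp_ne (hn : 0 < n) (D : ℕ) (t : Fin D) (s : Fin a) :
    (lin (Yp n D t) s : TT a n) ≠ 0 := by
  classical
  intro h
  have h1 := congrArg (coeff (Finsupp.single (s, (⟨0, hn⟩ : Fin n)) 1)) h
  unfold lin at h1
  rw [coeff_sum, Finset.sum_eq_single (⟨0, hn⟩ : Fin n)] at h1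
  · rw [coeff_C_mul, coeff_X] at h1
    simp [Yp] at h1
  · intro l _ hl
    rw [coeff_C_mul, coeff_X, if_neg, mul_zero]
    intro h2
    have := (Finsupp.single_left_inj (one_ne_zero)).1 h2
    exact hl (Prod.mk.inj this).2
  · simp

lemma eval_Ur (τ : ℂ) (i : Fin a) :
    Polynomial.eval (C τ) (Ur i : Polynomial (TT a n)) = lin (fun l : Fin n => τ ^ (l : ℕ)) i := by
  unfold Ur lin
  rw [Polynomial.eval_finsetSum]
  refine Finset.sum_congr rfl fun l _ => ?_
  rw [Polynomial.eval_mul, Polynomial.eval_C, Polynomial.eval_pow, Polynomial.eval_X, map_pow,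
    mul_comm]

/-- The span of the `qf` of the chosen points. -/
noncomputable def Qp (a n D : ℕ) : Submodule ℂ (TT a n) :=
  Submodule.span ℂ (Set.range fun t : Fin D => qf (Yp n D t))

lemma Cs_le_Qp : (Cs Finset.univ : Submodule ℂ (TT a n)) ≤ Qp a n (a * (n - 1) + 1) := by
  set D := a * (n - 1) + 1 with hD
  have hdeg : (PS Finset.univ : Polynomial (TT a n)).natDegree < D := by
    have := PS_natDegree (a := a) (n := n) Finset.univ
    rw [Finset.card_univ, Fintype.card_fin] at this
    omega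
  rw [Cs, Submodule.span_le]
  rintro _ ⟨J, rfl⟩
  by_cases hJ : J < D
  · refine coeff_mem (Qp a n D) (fun J => (PS Finset.univ : Polynomial (TT a n)).coeff J) D
      (fun t => ((t : ℕ) : ℂ)) (fun t t' h => Fin.ext (Nat.cast_injective h)) (fun t => ?_) J hJ
    have h1 : (qf (Yp n D t) : TT a n) = ∑ i ∈ Finset.range D,
        ((t : ℕ) : ℂ) ^ i • (PS Finset.univ : Polynomial (TT a n)).coeff i := by
      have h2 : (qf (Yp n D t) : TT a n) =
          Polynomial.eval (C ((t : ℕ) : ℂ)) (PS Finset.univ : Polynomial (TT a n)) := by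
        unfold PS qf
        rw [Polynomial.eval_prod]
        refine Finset.prod_congr rfl fun i _ => ?_
        rw [eval_Ur]
        rfl
      rw [h2, Polynomial.eval_eq_sum_range' hdeg]
      refine Finset.sum_congr rfl fun i _ => ?_
      rw [smul_eq_C_mul, map_pow, mul_comm]
    show ∑ i ∈ Finset.range D, ((t : ℕ) : ℂ) ^ i • (PS Finset.univ : Polynomial (TT a n)).coeff i ∈ _
    rw [← h1]
    exact Submodule.subset_span ⟨t, rfl⟩
  · show (PS Finset.univ : Polynomial (TT a n)).coeff J ∈ _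
    rw [Polynomial.coeff_eq_zero_of_natDegree_lt (by omega)]
    exact zero_mem _

lemma prod_mem_pow {R ι : Type*} [CommRing R] [Algebra ℂ R] [DecidableEq ι] (W : Submodule ℂ R)
    (S : Finset ι) (x : ι → R) (hx : ∀ i ∈ S, x i ∈ W) : ∏ i ∈ S, x i ∈ W ^ S.card := by
  induction S using Finset.induction_on with
  | empty =>
    simp only [Finset.prod_empty, Finset.card_empty, pow_zero]
    exact Submodule.one_le.1 le_rfl
  | insert i₀ S hi ih =>
    rw [Finset.prod_insert hi, Finset.card_insert_of_notMem hi, pow_succ']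
    exact Submodule.mul_mem_mul (hx i₀ (Finset.mem_insert_self _ _))
      (ih fun i hiS => hx i (Finset.mem_insert_of_mem hiS))

/-- The generation statement combined with the conductor statement, by the pigeonhole principle. -/
theorem rey_main (ha : 0 < a) (hn : 0 < n) (b : ℕ)
    (hb : (a - 1) * (n - 1) * (1 + (a - 1) * (a * (n - 1) + 1)) ≤ b)
    (g : TT a n) (hg : g ∈ TS Finset.univ b) : Rey g ∈ G1 a n ^ b := by
  classical
  set c₀ := (a - 1) * (n - 1) with hc₀
  set D := a * (n - 1) + 1 with hD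
  set N := (a - 1) * c₀ with hN
  have hb2 : c₀ + D * N ≤ b := by
    calc c₀ + D * N = c₀ * (1 + (a - 1) * D) := by rw [hN]; ring
      _ ≤ b := hb
  obtain ⟨s, hs⟩ : ∃ s, b = c₀ + s := ⟨b - c₀, by omega⟩
  subst hs
  have hs2 : D * N ≤ s := by omega
  have h1 := TS_iter (a := a) (n := n) c₀ le_rfl s hg
  have h2 : (Cs Finset.univ : Submodule ℂ (TT a n)) ^ s * TS Finset.univ c₀ ≤
      Qp a n D ^ s * TS Finset.univ c₀ :=
    mul_le_mul_left (pow_le_pow_left' Cs_le_Qp s) _
  have h3 := h2 h1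
  clear h1 h2 hg
  have key : ∀ h ∈ Qp a n D ^ s, ∀ g₀ ∈ (TS Finset.univ c₀ : Submodule ℂ (TT a n)),
      Rey (h * g₀) ∈ G1 a n ^ (c₀ + s) := by
    intro h hh g₀ hg₀
    have hh2 := pow_span_le (fun t : Fin D => (qf (Yp n D t) : TT a n)) s hh
    clear hh
    induction hh2 using Submodule.span_induction with
    | mem z hz =>
      obtain ⟨t, rfl⟩ := hz
      have : Nonempty (Fin D) := ⟨⟨0, by omega⟩⟩
      obtain ⟨t₀, ht₀⟩ := Fintype.exists_le_card_fiber_of_mul_le_card t
        (n := N) (by simpa using hs2)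
      set F : Finset (Fin s) := univ.filter fun i => t i = t₀ with hF
      have hFc : F.card + Fᶜ.card = s := by
        rw [Finset.card_add_card_compl, Fintype.card_fin]
      set q₀ : TT a n := qf (Yp n D t₀) with hq₀
      have hsplit : ∏ i, (qf (Yp n D (t i)) : TT a n) =
          q₀ ^ N * (q₀ ^ (F.card - N) * ∏ i ∈ Fᶜ, qf (Yp n D (t i))) := by
        rw [← Finset.prod_mul_prod_compl F]
        have : ∏ i ∈ F, (qf (Yp n D (t i)) : TT a n) = q₀ ^ F.card := by
          rw [← Finset.prod_const]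
          refine Finset.prod_congr rfl fun i hi => ?_
          rw [(Finset.mem_filter.1 hi).2]
        rw [this, ← mul_assoc, ← pow_add]
        congr 2
        omega
      have hinv : ∀ τ, permRow τ (∏ i, (qf (Yp n D (t i)) : TT a n)) =
          ∏ i, qf (Yp n D (t i)) := by
        intro τ
        rw [map_prod]
        simp_rw [permRow_qf]
      rw [Rey_mul _ _ hinv, hsplit]
      have hc := cond_TS (Yp n D t₀) (fun s' => lin_Yp_ne hn D t₀ s') ha c₀ g₀ hg₀
      have hrest : q₀ ^ (F.card - N) * ∏ i ∈ Fᶜ, (qf (Yp n D (t i)) : TT a n) ∈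
          G1 a n ^ ((F.card - N) + Fᶜ.card) := by
        rw [pow_add]
        exact Submodule.mul_mem_mul (Submodule.pow_mem_pow _ (qf_mem_G1 _) _)
          (prod_mem_pow _ _ _ fun i _ => qf_mem_G1 _)
      have hexp : c₀ + s = (F.card - N) + Fᶜ.card + c₀ * a := by
        have e1 : c₀ * a = N + c₀ := by
          obtain ⟨a', rfl⟩ : ∃ a', a = a' + 1 := ⟨a - 1, by omega⟩
          rw [hN]
          simp only [Nat.add_sub_cancel]
          ring
        have e2 : N ≤ F.card := by simpa [hF] using ht₀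
        omega
      rw [hexp, pow_add]
      have h5 : q₀ ^ N * (q₀ ^ (F.card - N) * ∏ i ∈ Fᶜ, (qf (Yp n D (t i)) : TT a n)) * Rey g₀ =
          (q₀ ^ (F.card - N) * ∏ i ∈ Fᶜ, (qf (Yp n D (t i)) : TT a n)) * (q₀ ^ N * Rey g₀) := by
        ring
      rw [h5]
      exact Submodule.mul_mem_mul hrest hc
    | zero => simp
    | add u v _ _ hu hv =>
      rw [add_mul, map_add]
      exact add_mem hu hv
    | smul k u _ hu =>
      rw [smul_mul_assoc, map_smul]
      exact Submodule.smul_mem _ _ hu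
  have h4 : Qp a n D ^ s * TS Finset.univ c₀ ≤ (G1 a n ^ (c₀ + s)).comap Rey := by
    rw [Submodule.mul_le]
    exact fun h hh g₀ hg₀ => key h hh g₀ hg₀
  exact h4 h3

end Vale.Agent.Lib.P181
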