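import Mathlib
import Vale.Agent.Lib.P181.Pigeon

open MvPolynomial Finset
open scoped Pointwise

namespace Vale.Agent.Lib.P181

variable {a n : ℕ}

/-- Substitution of linear forms for the letters. -/
noncomputable def sigmaZ (z : Fin a → Fin n → ℂ) : TT a a →ₐ[ℂ] TT a n :=
  aeval fun p => lin (z p.2) p.1

lemma sigmaZ_lin (z : Fin a → Fin n → ℂ) (w : Fin a → ℂ) (i : Fin a) :
    sigmaZ z (lin w i) = lin (fun l => ∑ l', w l' * z l' l) i := by
  unfold sigmaZ lin
  rw [map_sum]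
  simp only [map_mul, aeval_X, algHom_C, map_sum]
  simp only [Finset.mul_sum, Finset.sum_mul]
  rw [Finset.sum_comm]
  refine Finset.sum_congr rfl fun l _ => Finset.sum_congr rfl fun l' _ => ?_
  simp [mul_assoc]

lemma sigmaZ_qf (z : Fin a → Fin n → ℂ) (w : Fin a → ℂ) :
    sigmaZ z (qf w) = qf (fun l => ∑ l', w l' * z l' l) := by
  unfold qf
  rw [map_prod]
  simp_rw [sigmaZ_lin]

lemma sigmaZ_G1 (z : Fin a → Fin n → ℂ) :
    (G1 a a).map (sigmaZ z).toLinearMap ≤ G1 a n := by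
  unfold G1
  rw [Submodule.map_span, Submodule.span_le]
  rintro _ ⟨_, ⟨w, rfl⟩, rfl⟩
  show sigmaZ z (qf w) ∈ _
  rw [sigmaZ_qf]
  exact qf_mem_G1 _

lemma sigmaZ_pow_mem (z : Fin a → Fin n → ℂ) (b : ℕ) (x : TT a a) (hx : x ∈ G1 a a ^ b) :
    sigmaZ z x ∈ G1 a n ^ b := by
  have h1 : (G1 a a ^ b).map (sigmaZ z).toLinearMap ≤ G1 a n ^ b := by
    rw [Submodule.map_pow]
    exact pow_le_pow_left' (sigmaZ_G1 z) b
  exact h1 (Submodule.mem_map_of_mem hx)

lemma sigmaZ_perm (z : Fin a → Fin n → ℂ) (τ : Equiv.Perm (Fin a)) (f : TT a a) :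
    sigmaZ z (permRow τ f) = permRow τ (sigmaZ z f) := by
  have h : (sigmaZ z).comp (permRow τ) = (permRow τ).comp (sigmaZ z) := by
    apply MvPolynomial.algHom_ext
    rintro ⟨i, l⟩
    simp only [AlgHom.comp_apply]
    unfold permRow sigmaZ
    rw [rename_X, aeval_X, aeval_X]
    exact (permRow_lin τ _ _).symm
  exact DFunLike.congr_fun h f

lemma sigmaZ_Rey (z : Fin a → Fin n → ℂ) (f : TT a a) : sigmaZ z (Rey f) = Rey (sigmaZ z f) := by
  rw [Rey_apply, Rey_apply, map_sum]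
  exact Finset.sum_congr rfl fun τ _ => sigmaZ_perm z τ f

lemma prod_mem_prod' {R ι : Type*} [CommRing R] [Algebra ℂ R] [DecidableEq ι]
    (M : ι → Submodule ℂ R) (S : Finset ι) (x : ι → R) (hx : ∀ i ∈ S, x i ∈ M i) :
    ∏ i ∈ S, x i ∈ ∏ i ∈ S, M i := by
  induction S using Finset.induction_on with
  | empty =>
    simp only [Finset.prod_empty]
    exact Submodule.one_le.1 le_rfl
  | insert i₀ S hi ih =>
    rw [Finset.prod_insert hi, Finset.prod_insert hi]
    exact Submodule.mul_mem_mul (hx i₀ (Finset.mem_insert_self _ _))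
      (ih fun i hiS => hx i (Finset.mem_insert_of_mem hiS))

lemma X_mem_rowSp (i : Fin a) (l : Fin n) : (X (i, l) : TT a n) ∈ rowSp i :=
  Submodule.subset_span ⟨l, rfl⟩

lemma rey_power (ha : 0 < a) (b : ℕ)
    (hb : (a - 1) * (a - 1) * (1 + (a - 1) * (a * (a - 1) + 1)) ≤ b)
    (z : Fin a → Fin n → ℂ) :
    Rey (∏ i, (lin (z i) i : TT a n) ^ b) ∈ G1 a n ^ b := by
  classical
  have hf : (∏ i : Fin a, (X (i, i) : TT a a) ^ b) ∈ TS Finset.univ b := by
    unfold TS
    exact prod_mem_prod' _ _ _ fun i _ => Submodule.pow_mem_pow _ (X_mem_rowSp i i) b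
  have h1 := rey_main ha ha b hb _ hf
  have h2 := sigmaZ_pow_mem z b _ h1
  rw [sigmaZ_Rey] at h2
  have h3 : sigmaZ z (∏ i : Fin a, (X (i, i) : TT a a) ^ b) = ∏ i, (lin (z i) i : TT a n) ^ b := by
    rw [map_prod]
    refine Finset.prod_congr rfl fun i _ => ?_
    rw [map_pow]
    congr 1
    unfold sigmaZ
    rw [aeval_X]
  rwa [h3] at h2

lemma rowSp_pow_le (i : Fin a) (b : ℕ) :
    (rowSp i : Submodule ℂ (TT a n)) ^ b ≤
      Submodule.span ℂ (Set.range fun v : Fin n → ℂ => (lin v i : TT a n) ^ b) := by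
  rw [rowSp_eq, ← Submodule.map_pow]
  refine (Submodule.map_mono (V1_pow_le b)).trans ?_
  rw [Submodule.map_span, Submodule.span_le]
  rintro _ ⟨_, ⟨v, rfl⟩, rfl⟩
  refine Submodule.subset_span ⟨v, ?_⟩
  show _ = (rowEmb i) ((lnf v) ^ b)
  rw [map_pow, rowEmb_lnf]

theorem rey_general (ha : 0 < a) (b : ℕ)
    (hb : (a - 1) * (a - 1) * (1 + (a - 1) * (a * (a - 1) + 1)) ≤ b)
    (g : TT a n) (hg : g ∈ TS Finset.univ b) : Rey g ∈ G1 a n ^ b := by
  classical
  have h1 : (TS Finset.univ b : Submodule ℂ (TT a n)) ≤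
      Submodule.span ℂ (∏ i : Fin a, Set.range fun v : Fin n → ℂ => (lin v i : TT a n) ^ b) := by
    rw [← Submodule.prod_span]
    exact Finset.prod_le_prod' fun i _ => rowSp_pow_le i b
  have h2 := h1 hg
  clear hg h1
  induction h2 using Submodule.span_induction with
  | mem x hx =>
    rw [Set.mem_fintype_prod] at hx
    obtain ⟨u, hu, rfl⟩ := hx
    choose z hz using hu
    have : ∏ i, u i = ∏ i, (lin (z i) i : TT a n) ^ b :=
      Finset.prod_congr rfl fun i _ => (hz i).symm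
    rw [this]
    exact rey_power ha b hb z
  | zero => simp
  | add u v _ _ hu hv => rw [map_add]; exact add_mem hu hv
  | smul k u _ hu => rw [map_smul]; exact Submodule.smul_mem _ _ hu

/-- The bound. -/
def bbound (a e : ℕ) : ℕ := (a - 1) * e * (1 + (a - 1) * (a * e + 1))

theorem rey_final {d : ℕ} (ha : 0 < a) (b : ℕ) (hb : bbound a (min d (a - 1)) ≤ b)
    (g : TT a (d + 1)) (hg : g ∈ TS Finset.univ b) : Rey g ∈ G1 a (d + 1) ^ b := by
  by_cases h : d ≤ a - 1
  · rw [min_eq_left h] at hb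
    exact rey_main ha (Nat.succ_pos d) b hb g hg
  · rw [min_eq_right (by omega)] at hb
    exact rey_general ha b hb g hg

/-- The value of a form on all the rows is a combination of products of `b` of the `qf w`. -/
theorem form_mem {d : ℕ} (ha : 0 < a) (b : ℕ) (hb : bbound a (min d (a - 1)) ≤ b)
    (η : MvPolynomial (Fin (d + 1)) ℂ) (hη : η ∈ V1 (d + 1) ^ b) :
    ∏ i : Fin a, rowEmb i η ∈ G1 a (d + 1) ^ b := by
  classical
  have hT : (∏ i : Fin a, rowEmb i η : TT a (d + 1)) ∈ TS Finset.univ b := by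
    unfold TS
    refine prod_mem_prod' _ _ _ fun i _ => ?_
    rw [rowSp_eq, ← Submodule.map_pow]
    exact Submodule.mem_map_of_mem hη
  have h1 := rey_final ha b hb _ hT
  have hinv : ∀ τ : Equiv.Perm (Fin a), permRow τ (∏ i : Fin a, rowEmb i η : TT a (d + 1)) =
      ∏ i : Fin a, rowEmb i η := by
    intro τ
    rw [map_prod]
    simp_rw [permRow_rowEmb]
    exact Equiv.prod_comp τ (fun i => (rowEmb i η : TT a (d + 1)))
  rw [Rey_apply] at h1
  simp_rw [hinv] at h1
  rw [Finset.sum_const, Finset.card_univ, Fintype.card_perm, Fintype.card_fin,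
    ← Nat.cast_smul_eq_nsmul ℂ] at h1
  have hne : ((a.factorial : ℕ) : ℂ) ≠ 0 := by exact_mod_cast a.factorial_ne_zero
  have h2 := Submodule.smul_mem _ ((a.factorial : ℂ)⁻¹) h1
  rwa [smul_smul, inv_mul_cancel₀ hne, one_smul] at h2

end Vale.Agent.Lib.P181
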