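import Mathlib
import Vale.Agent.Lib.P181.Transfer
import Vale.Agent.Lib.P181.Eval
import Vale.Agent.Lib.P181.Indep
import Vale.Agent.Lib.P181.Equivar

open MvPolynomial Finset

namespace Vale.Agent.Lib.P181

variable {a n b : ℕ}

/-- The exponent vector of a monomial. -/
noncomputable def xB (m : Mon n b) : Fin n →₀ ℕ := Multiset.toFinsupp m.1

lemma xB_injective : Function.Injective (xB : Mon n b → Fin n →₀ ℕ) := by
  intro m m' h
  apply Subtype.ext
  exact Multiset.toFinsupp.injective h

/-- A monomial as a polynomial in the letters. -/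
noncomputable def monF (m : Mon n b) : MvPolynomial (Fin n) ℂ := monomial (xB m) 1

lemma xB_rowMon (f : Fin b → Fin n) : xB (rowMon f) = ∑ s, Finsupp.single (f s) 1 := by
  classical
  ext l
  rw [Finsupp.finsetSum_apply]
  unfold xB
  rw [Multiset.toFinsupp_apply, count_rowMon, Finset.card_filter]
  simp [Finsupp.single_apply]

lemma monF_rowMon (f : Fin b → Fin n) : monF (rowMon f) = ∏ s, X (f s) := by
  unfold monF
  rw [xB_rowMon, MvPolynomial.monomial_sum_one]
  rfl

/-- The form on the letters with coefficients `ζ` in the monomial basis. -/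
noncomputable def formOf (ζ : Mon n b → ℂ) : MvPolynomial (Fin n) ℂ := ∑ m, C (ζ m) * monF m

lemma monF_mem (m : Mon n b) : monF m ∈ V1 n ^ b := by
  classical
  obtain ⟨f, rfl⟩ := exists_rowMon m
  rw [monF_rowMon]
  have h := prod_mem_pow (V1 n) (univ : Finset (Fin b)) (fun s => (X (f s) : MvPolynomial (Fin n) ℂ))
    (fun s _ => Submodule.subset_span ⟨f s, rfl⟩)
  simpa using h

lemma formOf_mem (ζ : Mon n b → ℂ) : formOf ζ ∈ V1 n ^ b := by
  unfold formOf
  refine Submodule.sum_mem _ fun m _ => ?_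
  rw [← smul_eq_C_mul]
  exact Submodule.smul_mem _ _ (monF_mem m)

/-- The coefficients of a product of linear forms. -/
noncomputable def hh (w : Fin b → Fin n → ℂ) (m : Mon n b) : ℂ :=
  ∑ f ∈ univ.filter (fun f : Fin b → Fin n => rowMon f = m), ∏ s, w s (f s)

lemma prod_lnf (w : Fin b → Fin n → ℂ) : ∏ s, lnf (w s) = formOf (hh w) := by
  classical
  unfold lnf formOf hh
  rw [Finset.prod_univ_sum, Fintype.piFinset_univ]
  rw [← Finset.sum_fiberwise (univ : Finset (Fin b → Fin n)) (fun f => rowMon f)]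
  refine Finset.sum_congr rfl fun m _ => ?_
  rw [map_sum, Finset.sum_mul]
  refine Finset.sum_congr (by ext f; simp) fun f hf => ?_
  rw [Finset.prod_mul_distrib, ← map_prod, ← (Finset.mem_filter.1 hf).2, monF_rowMon]

lemma prod_qf (w : Fin b → Fin n → ℂ) :
    (∏ s, qf (w s) : TT a n) = ∏ i, rowEmb i (formOf (hh w)) := by
  unfold qf
  rw [Finset.prod_comm]
  refine Finset.prod_congr rfl fun i _ => ?_
  rw [← prod_lnf, map_prod]
  exact Finset.prod_congr rfl fun s _ => (rowEmb_lnf i (w s)).symm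

/-- The order of the stabilizer of a monomial in the symmetric group. -/
noncomputable def kap (m : Mon n b) : ℕ :=
  (univ.filter fun ρ : Equiv.Perm (Fin b) =>
    (fun s => Classical.choose (exists_rowMon m) (ρ s)) = Classical.choose (exists_rowMon m)).card

lemma kap_ne_zero (m : Mon n b) : kap m ≠ 0 := by
  unfold kap
  exact Finset.card_ne_zero.2 ⟨1, by simp⟩

lemma gOf_eq (w : Fin b → Fin n → ℂ) (m : Mon n b) : gOf w m = (kap m : ℂ) * hh w m := by
  classical
  set f₀ := Classical.choose (exists_rowMon m) with hf₀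
  have hspec : rowMon f₀ = m := Classical.choose_spec (exists_rowMon m)
  have hg : gOf w m = ∑ ρ : Equiv.Perm (Fin b), ∏ s, w s (f₀ (ρ s)) := rfl
  rw [hg]
  unfold hh
  have hmaps : ∀ ρ ∈ (univ : Finset (Equiv.Perm (Fin b))),
      (fun s => f₀ (ρ s)) ∈ univ.filter (fun f : Fin b → Fin n => rowMon f = m) := by
    intro ρ _
    rw [Finset.mem_filter]
    exact ⟨Finset.mem_univ _, (rowMon_comp_perm f₀ ρ).trans hspec⟩
  rw [← Finset.sum_fiberwise_of_maps_to hmaps, Finset.mul_sum]
  refine Finset.sum_congr rfl fun f hf => ?_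
  have hf2 : rowMon f = m := (Finset.mem_filter.1 hf).2
  have h1 : ∀ ρ ∈ univ.filter (fun ρ : Equiv.Perm (Fin b) => (fun s => f₀ (ρ s)) = f),
      ∏ s, w s (f₀ (ρ s)) = ∏ s, w s (f s) := by
    intro ρ hρ
    have := (Finset.mem_filter.1 hρ).2
    rw [← this]
  rw [Finset.sum_congr rfl h1, Finset.sum_const, nsmul_eq_mul]
  congr 2
  -- all fibres have the same size
  obtain ⟨ρ₁, hρ₁⟩ := exists_perm_of_rowMon_eq f₀ f (hspec.trans hf2.symm)
  unfold kap
  rw [← hf₀]
  refine Finset.card_equiv (Equiv.mulRight ρ₁⁻¹) ?_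
  intro ρ
  simp only [Finset.mem_filter, Finset.mem_univ, true_and, Equiv.coe_mulRight]
  constructor
  · intro h
    funext s
    have h2 := congrFun h (ρ₁⁻¹ s)
    rw [hρ₁] at h2
    simpa using h2
  · intro h
    funext s
    rw [hρ₁]
    have h2 := congrFun h (ρ₁ s)
    simpa using h2

lemma rowEmb_monF (i : Fin a) (m : Mon n b) : rowEmb i (monF m) = monomial (pushE i (xB m)) 1 := by
  unfold rowEmb monF pushE
  rw [rename_monomial]

/-- The exponent vector of the product, over the rows, of the monomials `μ i`. -/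
noncomputable def xx (μ : Fin a → Mon n b) : Fin a × Fin n →₀ ℕ := ∑ i, pushE i (xB (μ i))

lemma xx_injective : Function.Injective (xx : (Fin a → Mon n b) → Fin a × Fin n →₀ ℕ) := by
  classical
  intro μ μ' h
  funext i
  apply xB_injective
  ext l
  have h1 := DFunLike.congr_fun h (i, l)
  unfold xx at h1
  rw [sum_pushE_apply (fun i => i), sum_pushE_apply (fun i => i)] at h1
  simpa using h1

lemma prod_form (ζ : Mon n b → ℂ) :
    (∏ i, rowEmb i (formOf ζ) : TT a n) =
      ∑ μ : Fin a → Mon n b, C (∏ i, ζ (μ i)) * monomial (xx μ) 1 := by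
  classical
  have h1 : ∀ i : Fin a, (rowEmb i (formOf ζ) : TT a n) =
      ∑ m, C (ζ m) * monomial (pushE i (xB m)) 1 := by
    intro i
    unfold formOf
    rw [map_sum]
    refine Finset.sum_congr rfl fun m _ => ?_
    rw [map_mul, ← rowEmb_monF]
    unfold rowEmb
    rw [rename_C]
  simp_rw [h1]
  rw [Finset.prod_univ_sum, Fintype.piFinset_univ]
  refine Finset.sum_congr rfl fun μ _ => ?_
  rw [Finset.prod_mul_distrib, ← map_prod]
  unfold xx
  rw [MvPolynomial.monomial_sum_one]

lemma coeff_prod_form (ζ : Mon n b → ℂ) (μ₀ : Fin a → Mon n b) :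
    coeff (xx μ₀) (∏ i, rowEmb i (formOf ζ) : TT a n) = ∏ i, ζ (μ₀ i) := by
  classical
  rw [prod_form, coeff_sum, Finset.sum_eq_single μ₀]
  · rw [coeff_C_mul, coeff_monomial, if_pos rfl, mul_one]
  · intro μ _ hμ
    rw [coeff_C_mul, coeff_monomial, if_neg (fun h => hμ (xx_injective h)), mul_zero]
  · simp

/-- The coefficient as a linear functional. -/
noncomputable def coeffL (u : Fin a × Fin n →₀ ℕ) : TT a n →ₗ[ℂ] ℂ where
  toFun := coeff u
  map_add' := coeff_add u
  map_smul' := fun c x => coeff_smul u c x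

/-- A linear functional on the polynomial ring which evaluates `P` on all the products of a form
over the rows. -/
lemma exists_functional (P : Pl n b) (hP : P.IsHomogeneous a) (κ : Mon n b → ℂ) :
    ∃ Φ : TT a n →ₗ[ℂ] ℂ, ∀ ζ : Mon n b → ℂ,
      Φ (∏ i, rowEmb i (formOf ζ)) = aeval (fun m => κ m * ζ m) P := by
  classical
  have key : ∀ e ∈ P.support, ∃ Φ : TT a n →ₗ[ℂ] ℂ, ∀ ζ : Mon n b → ℂ,
      Φ (∏ i, rowEmb i (formOf ζ)) = aeval (fun m => κ m * ζ m) (monomial e (coeff e P)) := by
    intro e he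
    have hd : e.degree = a := by
      by_contra hne
      exact (mem_support_iff.1 he) (hP.coeff_eq_zero hne)
    obtain ⟨μ, hμ⟩ := exists_fun_of_degree e hd
    refine ⟨(coeff e P * ∏ i, κ (μ i)) • coeffL (xx μ), fun ζ => ?_⟩
    have h1 : (monomial e (coeff e P) : Pl n b) = C (coeff e P) * ∏ i, X (μ i) := by
      have h2 : (∏ i, X (μ i) : Pl n b) = monomial e 1 := by
        rw [← hμ, MvPolynomial.monomial_sum_one]
        rfl
      rw [h2, C_mul_monomial, mul_one]
    have h3 : ((coeff e P * ∏ i, κ (μ i)) • coeffL (xx μ)) (∏ i, rowEmb i (formOf ζ)) =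
        (coeff e P * ∏ i, κ (μ i)) * ∏ i, ζ (μ i) := by
      rw [LinearMap.smul_apply, smul_eq_mul]
      congr 1
      exact coeff_prod_form ζ μ
    rw [h3, h1, map_mul, map_prod, aeval_C]
    simp only [aeval_X, Finset.prod_mul_distrib]
    simp [mul_assoc]
  choose! Φ hΦ using key
  refine ⟨∑ e ∈ P.support, Φ e, fun ζ => ?_⟩
  rw [LinearMap.sum_apply]
  conv_rhs => rw [P.as_sum, map_sum]
  exact Finset.sum_congr rfl fun e he => hΦ e he ζ

/-- The injectivity statement. -/
theorem foulkes_inj_bound (ha : 0 < a) {d : ℕ} (hb : bbound a (min d (a - 1)) ≤ b)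
    (P : Pl (d + 1) b) (hP : P.IsHomogeneous a) (h0 : foulkes a b (d + 1) P = 0) : P = 0 := by
  classical
  obtain ⟨Φ, hΦ⟩ := exists_functional (a := a) P hP (fun m => (kap m : ℂ))
  -- `Φ` vanishes on the products of `qf`
  have hz : ∀ w : Fin b → Fin (d + 1) → ℂ, Φ (∏ s, qf (w s)) = 0 := by
    intro w
    rw [prod_qf, hΦ]
    have h1 : (fun m => (kap m : ℂ) * hh w m) = gOf w := by
      funext m
      exact (gOf_eq w m).symm
    rw [h1]
    exact aeval_gOf_eq_zero w P hP h0
  have hG : (G1 a (d + 1) ^ b : Submodule ℂ (TT a (d + 1))) ≤ LinearMap.ker Φ := by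
    refine (pow_span_le qf b).trans ?_
    rw [Submodule.span_le]
    rintro _ ⟨f, rfl⟩
    exact hz f
  -- hence it vanishes on all the products of forms over the rows
  have hall : ∀ z : Mon (d + 1) b → ℂ, eval z P = 0 := by
    intro z
    have hk : ∀ m : Mon (d + 1) b, (kap m : ℂ) ≠ 0 := fun m => Nat.cast_ne_zero.2 (kap_ne_zero m)
    have h1 := hG (form_mem ha b hb _ (formOf_mem (fun m => z m / (kap m : ℂ))))
    rw [LinearMap.mem_ker, hΦ] at h1
    have h2 : (fun m => (kap m : ℂ) * (z m / (kap m : ℂ))) = z := by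
      funext m
      exact mul_div_cancel₀ _ (hk m)
    rw [h2] at h1
    have h3 : aeval z P = eval z P := by
      exact congrFun (congrArg DFunLike.coe (coe_aeval_eq_eval z)) P
    rwa [h3] at h1
  apply MvPolynomial.funext
  intro x
  rw [hall x, map_zero]

lemma bbound_mono (a : ℕ) {e e' : ℕ} (h : e ≤ e') : bbound a e ≤ bbound a e' := by
  unfold bbound
  gcongr

lemma bbound_le_pow (a : ℕ) (ha : 0 < a) : bbound a (a - 1) ≤ a ^ 5 := by
  obtain ⟨x, rfl⟩ : ∃ x, a = x + 1 := ⟨a - 1, by omega⟩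
  simp only [Nat.add_sub_cancel]
  unfold bbound
  simp only [Nat.add_sub_cancel]
  nlinarith [Nat.zero_le x, sq_nonneg x, Nat.zero_le (x ^ 2), Nat.zero_le (x ^ 3),
    Nat.zero_le (x ^ 4), Nat.zero_le (x ^ 5)]

/-- The multiplicity inequality. -/
theorem finrank_hwSpace_le_of_inj {a b d : ℕ}
    (hinj : ∀ P : Pl (d + 1) b, P.IsHomogeneous a → foulkes a b (d + 1) P = 0 → P = 0)
    (lam : Fin (d + 1) → ℕ) :
    Module.finrank ℂ (hwSpace a b (d + 1) lam) ≤ Module.finrank ℂ (hwSpace b a (d + 1) lam) := by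
  have hfin : FiniteDimensional ℂ (hwSpace b a (d + 1) lam) := by
    refine Submodule.finiteDimensional_of_le (S₂ := homogeneousSubmodule (Mon (d + 1) a) ℂ b) ?_
    intro P hP
    exact hP.1.1
  let f : hwSpace a b (d + 1) lam →ₗ[ℂ] hwSpace b a (d + 1) lam :=
    (foulkes a b (d + 1)).restrict fun P hP => foulkes_mem_hwSpace hP
  have hf : Function.Injective f := by
    rw [← LinearMap.ker_eq_bot, LinearMap.ker_eq_bot']
    intro P hP
    apply Subtype.ext
    have h1 : foulkes a b (d + 1) P.1 = 0 := congrArg Subtype.val hP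
    exact hinj P.1 P.2.1.1 h1
  exact LinearMap.finrank_le_finrank_of_injective hf

end Vale.Agent.Lib.P181
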