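import Mathlib
import Vale.Agent.Lib.P181.Link

open MvPolynomial Finset
open scoped Pointwise

namespace Vale.Agent.Lib.P181

variable {a n : ℕ}

section abstract

variable {R : Type*} [CommRing R] [Algebra ℂ R]

/-- The coefficients of a polynomial all of whose values at scalars lie in a subspace lie in that
subspace. -/
lemma poly_coeff_mem (W : Submodule ℂ R) (F : Polynomial R)
    (h : ∀ τ : ℂ, F.eval (algebraMap ℂ R τ) ∈ W) (j : ℕ) : F.coeff j ∈ W := by
  by_cases hj : j < F.natDegree + 1
  · refine coeff_mem W (fun i => F.coeff i) (F.natDegree + 1) (fun t => ((t : ℕ) : ℂ))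
      (fun t t' h => Fin.ext (Nat.cast_injective h)) (fun t => ?_) j hj
    have h1 := h ((t : ℕ) : ℂ)
    rw [Polynomial.eval_eq_sum_range] at h1
    convert h1 using 2
    rename_i i _
    rw [Algebra.smul_def, map_pow, mul_comm]
  · rw [Polynomial.coeff_eq_zero_of_natDegree_lt (by omega)]
    exact zero_mem _

/-- Coefficients of a power of a linear polynomial. -/
lemma coeff_lin_pow (A B : R) (N r : ℕ) :
    ((Polynomial.C A + Polynomial.C B * Polynomial.X) ^ N : Polynomial R).coeff r =
      (N.choose r : R) * A ^ (N - r) * B ^ r := by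
  classical
  have hterm : ∀ k, (Polynomial.C B * Polynomial.X) ^ k * (Polynomial.C A) ^ (N - k) *
      ((N.choose k : ℕ) : Polynomial R) =
      Polynomial.C ((N.choose k : R) * A ^ (N - k) * B ^ k) * Polynomial.X ^ k := by
    intro k
    rw [mul_pow, ← Polynomial.C_pow, ← Polynomial.C_pow, ← map_natCast (Polynomial.C (R := R)),
      Polynomial.C_mul, Polynomial.C_mul]
    ring
  rw [add_comm, add_pow, Polynomial.finsetSum_coeff]
  simp_rw [hterm, Polynomial.coeff_C_mul_X_pow]
  rw [Finset.sum_ite_eq]
  by_cases hr : r ≤ N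
  · rw [if_pos (Finset.mem_range.2 (by omega))]
  · rw [if_neg (fun h => hr (by have := Finset.mem_range.1 h; omega)),
      Nat.choose_eq_zero_of_lt (by omega), Nat.cast_zero, zero_mul, zero_mul]

/-- Elimination of the lower coefficients: the key identity behind the blow-up lemma. -/
theorem blow_abstract (A B : R) (P : Polynomial R) (m N s : ℕ) (hP : P.natDegree ≤ m)
    (hs : N + m ≤ s) (W U : Submodule ℂ R)
    (hW : ∀ τ : ℂ, ((Polynomial.C A + Polynomial.C B * Polynomial.X) ^ N * P).eval
      (algebraMap ℂ R τ) ∈ W)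
    (hU : ∀ t, t ≤ m → A ^ t * B ^ (s - N - t) ∈ U) :
    B ^ s * P.coeff 0 ∈ W * U := by
  classical
  -- downward induction on the index of the coefficient
  have key : ∀ d i, m + 1 - i ≤ d → A ^ i * B ^ (s - i) * P.coeff i ∈ W * U := by
    intro d
    induction d with
    | zero =>
      intro i hi
      rw [Polynomial.coeff_eq_zero_of_natDegree_lt (by omega), mul_zero]
      exact zero_mem _
    | succ d ih =>
      intro i hi
      by_cases him : m < i
      · rw [Polynomial.coeff_eq_zero_of_natDegree_lt (by omega), mul_zero]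
        exact zero_mem _
      have him' : i ≤ m := by omega
      set F := (Polynomial.C A + Polynomial.C B * Polynomial.X) ^ N * P with hF
      have h1 : F.coeff (N + i) ∈ W := poly_coeff_mem W F hW (N + i)
      have h2 : F.coeff (N + i) * (A ^ i * B ^ (s - N - i)) ∈ W * U :=
        Submodule.mul_mem_mul h1 (hU i him')
      rw [hF, Polynomial.coeff_mul] at h2
      have hmem : (N, i) ∈ Finset.HasAntidiagonal.antidiagonal (N + i) := by
        rw [Finset.HasAntidiagonal.mem_antidiagonal]
      rw [← Finset.add_sum_erase _ _ hmem, add_mul, coeff_lin_pow] at h2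
      have h3 : (N.choose N : R) * A ^ (N - N) * B ^ N * P.coeff i * (A ^ i * B ^ (s - N - i)) =
          A ^ i * B ^ (s - i) * P.coeff i := by
        have e : s - i = N + (s - N - i) := by omega
        rw [e, Nat.choose_self, Nat.sub_self, pow_add]
        simp only [Nat.cast_one, pow_zero, one_mul]
        ring
      rw [h3] at h2
      have h4 : (∑ x ∈ (Finset.HasAntidiagonal.antidiagonal (N + i)).erase (N, i),
          ((Polynomial.C A + Polynomial.C B * Polynomial.X) ^ N : Polynomial R).coeff x.1 *
            P.coeff x.2) * (A ^ i * B ^ (s - N - i)) ∈ W * U := by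
        rw [Finset.sum_mul]
        refine Submodule.sum_mem _ fun x hx => ?_
        obtain ⟨hx1, hx2⟩ := Finset.mem_erase.1 hx
        have hsum : x.1 + x.2 = N + i := Finset.HasAntidiagonal.mem_antidiagonal.1 hx2
        rw [coeff_lin_pow]
        by_cases hxN : x.1 ≤ N
        · have hx3 : i < x.2 := by
            have : x.1 ≠ N := fun h => hx1 (Prod.ext h (by simpa using by omega))
            omega
          have h5 := ih x.2 (by omega)
          have h6 : (N.choose x.1 : R) * A ^ (N - x.1) * B ^ x.1 * P.coeff x.2 *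
              (A ^ i * B ^ (s - N - i)) =
              (N.choose x.1) • (A ^ x.2 * B ^ (s - x.2) * P.coeff x.2) := by
            have e1 : x.2 = (N - x.1) + i := by omega
            have e2 : s - x.2 = x.1 + (s - N - i) := by omega
            rw [e2, pow_add, nsmul_eq_mul]
            rw [show A ^ x.2 = A ^ (N - x.1) * A ^ i by rw [e1, pow_add]]
            ring
          rw [h6]
          exact Submodule.smul_of_tower_mem _ _ h5
        · rw [Nat.choose_eq_zero_of_lt (by omega)]
          simp
      exact (Submodule.add_mem_iff_left _ h4).1 h2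
  have h0 := key (m + 1) 0 (by omega)
  simpa using h0

end abstract

/-- The span of the products, over the rows of `S`, of the `N`-th powers of a linear form. -/
noncomputable def QS (S : Finset (Fin a)) (N : ℕ) : Submodule ℂ (TT a n) :=
  Submodule.span ℂ (Set.range fun y : Fin n → ℂ => ∏ i ∈ S, (lin y i : TT a n) ^ N)

lemma lin_mem_rowSp (w : Fin n → ℂ) (i : Fin a) : (lin w i : TT a n) ∈ rowSp i := by
  unfold lin
  refine Submodule.sum_mem _ fun l _ => ?_
  rw [← smul_eq_C_mul]
  exact Submodule.smul_mem _ _ (X_mem_rowSp i l)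

/-- The linear polynomial along the line `y + τ v`. -/
noncomputable def LL (y v : Fin n → ℂ) (i : Fin a) : Polynomial (TT a n) :=
  Polynomial.C (lin y i) + Polynomial.C (lin v i) * Polynomial.X

lemma LL_eval (y v : Fin n → ℂ) (i : Fin a) (τ : ℂ) :
    (LL y v i).eval (algebraMap ℂ (TT a n) τ) = lin (fun l => y l + τ * v l) i := by
  unfold LL
  rw [lin_add_smul, Polynomial.eval_add, Polynomial.eval_mul, Polynomial.eval_C, Polynomial.eval_C,
    Polynomial.eval_X, Algebra.smul_def]
  ring

lemma LL_natDegree (y v : Fin n → ℂ) (i : Fin a) : (LL y v i : Polynomial (TT a n)).natDegree ≤ 1 := by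
  unfold LL
  rw [add_comm]
  exact Polynomial.natDegree_linear_le

/-- One row is inserted into the product. -/
lemma blow_step (S : Finset (Fin a)) (i₀ : Fin a) (hi : i₀ ∉ S) (N s : ℕ)
    (hs : (S.card + 1) * N ≤ s) (y v : Fin n → ℂ) :
    (lin v i₀ : TT a n) ^ s * ∏ i ∈ S, (lin y i : TT a n) ^ N ∈
      QS (insert i₀ S) N * rowSp i₀ ^ (s - N) := by
  classical
  have h := blow_abstract (lin y i₀ : TT a n) (lin v i₀) (∏ i ∈ S, (LL y v i) ^ N) (S.card * N) N s
    (by
      refine (Polynomial.natDegree_prod_le _ _).trans ?_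
      refine (Finset.sum_le_card_nsmul _ _ N fun i _ => ?_).trans (by simp)
      refine Polynomial.natDegree_pow_le.trans ?_
      have := LL_natDegree y v i
      nlinarith)
    (by
      have : (S.card + 1) * N = N + S.card * N := by ring
      omega)
    (QS (insert i₀ S) N) (rowSp i₀ ^ (s - N))
    (fun τ => by
      have e : ((Polynomial.C (lin y i₀) + Polynomial.C (lin v i₀) * Polynomial.X) ^ N *
          ∏ i ∈ S, (LL y v i) ^ N).eval (algebraMap ℂ (TT a n) τ) =
          ∏ i ∈ insert i₀ S, (lin (fun l => y l + τ * v l) i : TT a n) ^ N := by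
        rw [Finset.prod_insert hi, Polynomial.eval_mul, Polynomial.eval_pow, Polynomial.eval_prod]
        congr 1
        · rw [← LL_eval]
          rfl
        · refine Finset.prod_congr rfl fun i _ => ?_
          rw [Polynomial.eval_pow, LL_eval]
      rw [e]
      exact Submodule.subset_span ⟨_, rfl⟩)
    (fun t ht => by
      have h5 := Submodule.mul_mem_mul (Submodule.pow_mem_pow (rowSp i₀) (lin_mem_rowSp y i₀) t)
        (Submodule.pow_mem_pow (rowSp i₀) (lin_mem_rowSp v i₀) (s - N - t))
      rw [← pow_add] at h5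
      have e : t + (s - N - t) = s - N := by
        have : (S.card + 1) * N = N + S.card * N := by ring
        omega
      rwa [e] at h5)
  have e0 : (∏ i ∈ S, (LL y v i) ^ N : Polynomial (TT a n)).coeff 0 =
      ∏ i ∈ S, (lin y i : TT a n) ^ N := by
    rw [Polynomial.coeff_zero_eq_eval_zero, Polynomial.eval_prod]
    refine Finset.prod_congr rfl fun i _ => ?_
    unfold LL
    simp
  rwa [e0] at h

lemma blow_le (S : Finset (Fin a)) (i₀ : Fin a) (hi : i₀ ∉ S) (N s : ℕ)
    (hs : (S.card + 1) * N ≤ s) :
    (rowSp i₀ ^ s * QS S N : Submodule ℂ (TT a n)) ≤ QS (insert i₀ S) N * rowSp i₀ ^ (s - N) := by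
  refine (mul_le_mul_left (rowSp_pow_le i₀ s) _).trans ?_
  unfold QS
  rw [Submodule.span_mul_span, Submodule.span_le]
  rintro _ ⟨_, ⟨v, rfl⟩, _, ⟨y, rfl⟩, rfl⟩
  exact blow_step S i₀ hi N s hs y v

/-- The blow-up lemma. -/
theorem TS_blow (N : ℕ) (S : Finset (Fin a)) :
    ∀ s, S.card * N ≤ s → (TS S s : Submodule ℂ (TT a n)) ≤ QS S N * TS S (s - N) := by
  classical
  induction S using Finset.induction_on with
  | empty =>
    intro s _
    unfold TS QS
    simp only [Finset.prod_empty, mul_one]
    rw [Submodule.one_le]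
    refine Submodule.subset_span ⟨0, ?_⟩
    simp
  | insert i₀ S hi ih =>
    intro s hs
    rw [Finset.card_insert_of_notMem hi] at hs
    have h1 := ih s (by nlinarith)
    have e1 : ∀ c, (TS (insert i₀ S) c : Submodule ℂ (TT a n)) = rowSp i₀ ^ c * TS S c := by
      intro c
      unfold TS
      rw [Finset.prod_insert hi]
    rw [e1, e1]
    refine (mul_le_mul_right h1 _).trans ?_
    rw [← mul_assoc]
    refine (mul_le_mul_left (blow_le S i₀ hi N s hs) _).trans ?_
    rw [mul_assoc]

lemma QS_univ_pow (N : ℕ) :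
    (QS (univ : Finset (Fin a)) N : Submodule ℂ (TT a n)) =
      Submodule.span ℂ (Set.range fun y : Fin n → ℂ => (qf y : TT a n) ^ N) := by
  unfold QS qf
  simp_rw [Finset.prod_pow]

lemma QS_univ_one : (QS (univ : Finset (Fin a)) 1 : Submodule ℂ (TT a n)) = G1 a n := by
  rw [QS_univ_pow]
  unfold G1
  simp_rw [pow_one]

/-- Iterating the blow-up lemma for exponent one. -/
theorem TS_iter1 (c r : ℕ) (hc : a ≤ c + 1) :
    (TS Finset.univ (c + r) : Submodule ℂ (TT a n)) ≤ G1 a n ^ r * TS Finset.univ c := by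
  induction r with
  | zero => simp
  | succ r ih =>
    have h1 := TS_blow (a := a) (n := n) 1 Finset.univ (c + (r + 1))
      (by simp only [Finset.card_univ, Fintype.card_fin]; omega)
    rw [QS_univ_one] at h1
    have e : c + (r + 1) - 1 = c + r := by omega
    rw [e] at h1
    rw [show c + (r + 1) = (c + (r + 1)) from rfl]
    refine h1.trans ((mul_le_mul_right ih _).trans ?_)
    rw [pow_succ', mul_assoc]

lemma permRow_G1_pow (r : ℕ) (x : TT a n) (hx : x ∈ G1 a n ^ r) (τ : Equiv.Perm (Fin a)) :
    permRow τ x = x := by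
  have h := pow_span_le (qf (a := a) (n := n)) r hx
  clear hx
  induction h using Submodule.span_induction with
  | mem z hz =>
    obtain ⟨f, rfl⟩ := hz
    rw [map_prod]
    exact Finset.prod_congr rfl fun i _ => permRow_qf τ _
  | zero => simp
  | add u v _ _ hu hv => rw [map_add, hu, hv]
  | smul k u _ hu => rw [map_smul, hu]

/-- The conductor statement for an arbitrary linear form. -/
lemma cond_any {d : ℕ} (ha : 0 < a) (y : Fin (d + 1) → ℂ) (g : TT a (d + 1))
    (hg : g ∈ TS Finset.univ (a - 1)) :
    (qf y : TT a (d + 1)) ^ ((a - 1) * (a - 1)) * Rey g ∈ G1 a (d + 1) ^ ((a - 1) * a) := by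
  classical
  by_cases hy : ∀ s : Fin a, (lin y s : TT a (d + 1)) ≠ 0
  · exact cond_TS y hy ha _ g hg
  · by_cases h1 : a = 1
    · subst h1
      -- the exponent vanishes; any nonzero form works
      have hone : ∀ s : Fin 1, (lin (fun _ => 1) s : TT 1 (d + 1)) ≠ 0 := by
        intro s hs
        have := congrArg (coeff (Finsupp.single (s, 0) 1)) hs
        unfold lin at this
        rw [coeff_sum, Finset.sum_eq_single 0] at this
        · simp [coeff_X] at this
        · intro l _ hl
          rw [coeff_C_mul, coeff_X, if_neg, mul_zero]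
          intro h
          have h2 := DFunLike.congr_fun h (s, 0)
          simp [Ne.symm hl] at h2
        · simp
      have := cond_TS (a := 1) (fun _ => 1) hone ha _ g hg
      simpa using this
    · push Not at hy
      obtain ⟨s, hs⟩ := hy
      have hq : (qf y : TT a (d + 1)) = 0 := Finset.prod_eq_zero (Finset.mem_univ s) hs
      have hpos : (a - 1) * (a - 1) ≠ 0 := by
        have : a - 1 ≠ 0 := by omega
        exact mul_ne_zero this this
      rw [hq, zero_pow hpos, zero_mul]
      exact zero_mem _

/-- The Reynolds statement at the cubic threshold. -/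
theorem rey_cubic {d : ℕ} (ha : 0 < a) (b : ℕ) (hb : a * (a - 1) ^ 2 ≤ b)
    (g : TT a (d + 1)) (hg : g ∈ TS Finset.univ b) : Rey g ∈ G1 a (d + 1) ^ b := by
  classical
  obtain ⟨c, rfl⟩ : ∃ c, a = c + 1 := ⟨a - 1, by omega⟩
  simp only [Nat.add_sub_cancel] at hb ⊢
  have hcard : (Finset.univ : Finset (Fin (c + 1))).card = c + 1 := by simp
  have h1 := TS_blow (a := c + 1) (n := d + 1) (c * c) Finset.univ b
    (by rw [hcard]; nlinarith)
  have hr : c * c + c ≤ b := by
    have h3 : c ≤ c * c * c + c * c := by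
      rcases Nat.eq_zero_or_pos c with rfl | h
      · simp
      · nlinarith [Nat.mul_pos h h, Nat.mul_pos (Nat.mul_pos h h) h]
    nlinarith
  obtain ⟨r, hr⟩ : ∃ r, b = c * c + (c + r) := ⟨b - (c * c + c), by omega⟩
  have e1 : b - c * c = c + r := by omega
  rw [e1] at h1
  have h2 := TS_iter1 (a := c + 1) (n := d + 1) c r le_rfl
  have h3 := h1.trans (mul_le_mul_right h2 _)
  have h4 := h3 hg
  rw [QS_univ_pow, ← mul_assoc] at h4
  clear h1 h2 h3 hg
  have e2 : b = (c * (c + 1)) + r := by
    rw [hr]
    ring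
  rw [e2]
  -- the induction over the three factors
  have key : ∀ (y : Fin (d + 1) → ℂ) (x h : TT (c + 1) (d + 1)), x ∈ G1 (c + 1) (d + 1) ^ r →
      h ∈ TS Finset.univ c →
      Rey ((qf y) ^ (c * c) * x * h) ∈ G1 (c + 1) (d + 1) ^ (c * (c + 1) + r) := by
    intro y x h hx hh
    have e3 : (qf y : TT (c + 1) (d + 1)) ^ (c * c) * x * h = x * ((qf y) ^ (c * c) * h) := by ring
    rw [e3, Rey_mul _ _ (fun τ => permRow_G1_pow r x hx τ),
      Rey_mul _ _ (fun τ => by rw [map_pow, permRow_qf])]
    have h5 : (qf y : TT (c + 1) (d + 1)) ^ (c * c) * Rey h ∈ G1 (c + 1) (d + 1) ^ (c * (c + 1)) :=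
      cond_any (Nat.succ_pos c) y h hh
    have e4 : c * (c + 1) + r = r + c * (c + 1) := add_comm _ _
    rw [e4, pow_add]
    exact Submodule.mul_mem_mul hx h5
  -- general element
  refine Submodule.mul_induction_on h4 ?_ ?_
  · intro u hu h hh
    refine Submodule.mul_induction_on hu ?_ ?_
    · intro q hq x hx
      induction hq using Submodule.span_induction with
      | mem z hz =>
        obtain ⟨y, rfl⟩ := hz
        exact key y x h hx hh
      | zero => simp
      | add p p' _ _ h1 h2 =>
        rw [add_mul, add_mul, map_add]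
        exact add_mem h1 h2
      | smul k p _ h1 =>
        rw [smul_mul_assoc, smul_mul_assoc, map_smul]
        exact Submodule.smul_mem _ _ h1
    · intro p p' h1 h2
      rw [add_mul, map_add]
      exact add_mem h1 h2
  · intro p p' h1 h2
    rw [map_add]
    exact add_mem h1 h2

/-- The value of a form on all the rows is a combination of products of `b` of the `qf w`. -/
theorem form_mem_cubic {d : ℕ} (ha : 0 < a) (b : ℕ) (hb : a * (a - 1) ^ 2 ≤ b)
    (η : MvPolynomial (Fin (d + 1)) ℂ) (hη : η ∈ V1 (d + 1) ^ b) :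
    ∏ i : Fin a, rowEmb i η ∈ G1 a (d + 1) ^ b := by
  classical
  have hT : (∏ i : Fin a, rowEmb i η : TT a (d + 1)) ∈ TS Finset.univ b := by
    unfold TS
    refine prod_mem_prod' _ _ _ fun i _ => ?_
    rw [rowSp_eq, ← Submodule.map_pow]
    exact Submodule.mem_map_of_mem hη
  have h1 := rey_cubic ha b hb _ hT
  have hinv : ∀ τ : Equiv.Perm (Fin a), permRow τ (∏ i : Fin a, rowEmb i η : TT a (d + 1)) =
      ∏ i : Fin a, rowEmb i η := by
    intro τ
    rw [map_prod]
    simp_rw [permRow_rowEmb]
    exact Equiv.prod_comp τ (fun i => (rowEmb i η : TT a (d + 1)))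
  rw [Rey_apply] at h1
  simp_rw [hinv] at h1
  rw [Finset.sum_const, Finset.card_univ, Fintype.card_perm, Fintype.card_fin,
    ← Nat.cast_smul_eq_nsmul ℂ] at h1
  have hne : ((a.factorial : ℕ) : ℂ) ≠ 0 := by exact_mod_cast a.factorial_ne_zero
  have h2 := Submodule.smul_mem _ ((a.factorial : ℂ)⁻¹) h1
  rwa [smul_smul, inv_mul_cancel₀ hne, one_smul] at h2

/-- The injectivity statement. -/
theorem foulkes_inj_cubic {b : ℕ} (ha : 0 < a) {d : ℕ} (hb : a * (a - 1) ^ 2 ≤ b)
    (P : Pl (d + 1) b) (hP : P.IsHomogeneous a) (h0 : foulkes a b (d + 1) P = 0) : P = 0 := by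
  classical
  obtain ⟨Φ, hΦ⟩ := exists_functional (a := a) P hP (fun m => (kap m : ℂ))
  have hz : ∀ w : Fin b → Fin (d + 1) → ℂ, Φ (∏ s, qf (w s)) = 0 := by
    intro w
    rw [prod_qf, hΦ]
    have h1 : (fun m => (kap m : ℂ) * hh w m) = gOf w := by
      funext m
      exact (gOf_eq w m).symm
    rw [h1]
    exact aeval_gOf_eq_zero w P hP h0
  have hG : (G1 a (d + 1) ^ b : Submodule ℂ (TT a (d + 1))) ≤ LinearMap.ker Φ := by
    refine (pow_span_le qf b).trans ?_
    rw [Submodule.span_le]
    rintro _ ⟨f, rfl⟩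
    exact hz f
  have hall : ∀ z : Mon (d + 1) b → ℂ, eval z P = 0 := by
    intro z
    have hk : ∀ m : Mon (d + 1) b, (kap m : ℂ) ≠ 0 := fun m => Nat.cast_ne_zero.2 (kap_ne_zero m)
    have h1 := hG (form_mem_cubic ha b hb _ (formOf_mem (fun m => z m / (kap m : ℂ))))
    rw [LinearMap.mem_ker, hΦ] at h1
    have h2 : (fun m => (kap m : ℂ) * (z m / (kap m : ℂ))) = z := by
      funext m
      exact mul_div_cancel₀ _ (hk m)
    rw [h2] at h1
    have h3 : aeval z P = eval z P := by
      exact congrFun (congrArg DFunLike.coe (coe_aeval_eq_eval z)) P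
    rwa [h3] at h1
  apply MvPolynomial.funext
  intro x
  rw [hall x, map_zero]

end Vale.Agent.Lib.P181
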